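import Vale.Agent.P287.R2.H622.Geo

/-!
P287 (helper622): the cubic form attached to a plane of a smooth cubic fourfold and a frame, modulo
the degree three part of the Jacobian ideal.
-/

namespace Vale.Agent.P287.R2.H622

open Module Submodule
open Vale.Agent.P287.R2.H248

variable {V : Type*} [AddCommGroup V] [Module ℂ V] {S : Tri V}

/-- The functions which agree on `Q` with a member `T x x (A x)` of the Jacobian ideal. -/
def JS (S : Tri V) (Q : Submodule ℂ V) : Submodule ℂ (V → ℂ) where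
  carrier := {f | ∃ A : V →ₗ[ℂ] V, ∀ x ∈ Q, f x = S.T x x (A x)}
  add_mem' := by
    rintro f g ⟨A, hA⟩ ⟨B, hB⟩
    refine ⟨A + B, fun x hx => ?_⟩
    rw [Pi.add_apply, hA x hx, hB x hx, LinearMap.add_apply, map_add]
  zero_mem' := ⟨0, fun x _ => by simp⟩
  smul_mem' := by
    rintro c f ⟨A, hA⟩
    refine ⟨c • A, fun x hx => ?_⟩
    rw [Pi.smul_apply, hA x hx, LinearMap.smul_apply, map_smul]

lemma mem_JS {Q : Submodule ℂ V} {f : V → ℂ} :
    f ∈ JS S Q ↔ ∃ A : V →ₗ[ℂ] V, ∀ x ∈ Q, f x = S.T x x (A x) := Iff.rfl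

lemma JS_mul (Q : Submodule ℂ V) (l : V →ₗ[ℂ] ℂ) (b : V) : (fun x => l x * S.T x x b) ∈ JS S Q :=
  ⟨l.smulRight b, fun x _ => by rw [LinearMap.smulRight_apply, map_smul, smul_eq_mul]⟩

lemma JS_mono {Q : Submodule ℂ V} {f : V → ℂ} (h : f ∈ JS S ⊤) : f ∈ JS S Q := by
  obtain ⟨A, hA⟩ := h
  exact ⟨A, fun x _ => hA x trivial⟩

lemma JS_congr {Q : Submodule ℂ V} {f g : V → ℂ} (h : g ∈ JS S Q) (hfg : ∀ x ∈ Q, f x = g x) :
    f ∈ JS S Q := by
  obtain ⟨A, hA⟩ := h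
  exact ⟨A, fun x hx => (hfg x hx).trans (hA x hx)⟩

/-- the determinant of the matrix `T y (b i) (k j)` -/
noncomputable def dt (S : Tri V) (y : V) (b k : Fin 3 → V) : ℂ :=
  (Matrix.of fun i j => S.T y (b i) (k j)).det

lemma dt_change (y : V) {b b' k k' : Fin 3 → V} (g h : Matrix (Fin 3) (Fin 3) ℂ)
    (hb : ∀ i, b' i = ∑ l, g i l • b l) (hk : ∀ j, k' j = ∑ l, h j l • k l) :
    dt S y b' k' = g.det * h.det * dt S y b k := by
  have h1 : (Matrix.of fun i j => S.T y (b' i) (k' j)) =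
      g * (Matrix.of fun i j => S.T y (b i) (k j)) * h.transpose := by
    ext i j
    rw [Matrix.mul_apply]
    simp only [Matrix.mul_apply, Matrix.of_apply, Matrix.transpose_apply, hb i, hk j, map_sum,
      map_smul, LinearMap.sum_apply, LinearMap.smul_apply, smul_eq_mul, Finset.sum_mul,
      Finset.mul_sum]
    refine Finset.sum_congr rfl fun l _ => Finset.sum_congr rfl fun m _ => ?_
    ring
  unfold dt
  rw [h1, Matrix.det_mul, Matrix.det_mul, Matrix.det_transpose]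
  ring

/-- the projection to the first half of a frame -/
noncomputable def prj (e : Basis (Fin 3 ⊕ Fin 3) ℂ V) : V →ₗ[ℂ] V :=
  ∑ i, (e.coord (Sum.inl i)).smulRight (e (Sum.inl i))

lemma prj_apply (e : Basis (Fin 3 ⊕ Fin 3) ℂ V) (x : V) :
    prj e x = ∑ i, e.repr x (Sum.inl i) • e (Sum.inl i) := by
  simp [prj, LinearMap.sum_apply]

/-- The cubic form of a frame. -/
noncomputable def dl (S : Tri V) (e : Basis (Fin 3 ⊕ Fin 3) ℂ V) (x : V) : ℂ :=
  dt S (x + prj e x) (fun i => e (Sum.inl i)) (fun j => e (Sum.inr j))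

/-- the determinant identity behind the independence of the frame -/
lemma det_identity (M c : Fin 3 → Fin 3 → ℂ) (w m : Fin 3 → ℂ)
    (hm : ∀ i, m i = w 0 * M i 0 + w 1 * M i 1 + w 2 * M i 2) :
    (Matrix.of fun i j => M i j + ![-w 1 * c i 2 + w 2 * c i 1, w 0 * c i 2 - w 2 * c i 0,
      -w 0 * c i 1 + w 1 * c i 0] j : Matrix (Fin 3) (Fin 3) ℂ).det =
    (Matrix.of fun i j => M i j : Matrix (Fin 3) (Fin 3) ℂ).det +
      ((-(M 1 0 * c 2 0 - M 2 0 * c 1 0) - (M 1 1 * c 2 1 - M 2 1 * c 1 1)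
        - (M 1 2 * c 2 2 - M 2 2 * c 1 2) + w 0 * (c 1 1 * c 2 2 - c 2 1 * c 1 2)
        + w 1 * (c 1 2 * c 2 0 - c 2 2 * c 1 0) + w 2 * (c 1 0 * c 2 1 - c 2 0 * c 1 1)) * m 0 +
      (-(M 2 0 * c 0 0 - M 0 0 * c 2 0) - (M 2 1 * c 0 1 - M 0 1 * c 2 1)
        - (M 2 2 * c 0 2 - M 0 2 * c 2 2) + w 0 * (c 2 1 * c 0 2 - c 0 1 * c 2 2)
        + w 1 * (c 2 2 * c 0 0 - c 0 2 * c 2 0) + w 2 * (c 2 0 * c 0 1 - c 0 0 * c 2 1)) * m 1 +
      (-(M 0 0 * c 1 0 - M 1 0 * c 0 0) - (M 0 1 * c 1 1 - M 1 1 * c 0 1)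
        - (M 0 2 * c 1 2 - M 1 2 * c 0 2) + w 0 * (c 0 1 * c 1 2 - c 1 1 * c 0 2)
        + w 1 * (c 0 2 * c 1 0 - c 1 2 * c 0 0) + w 2 * (c 0 0 * c 1 1 - c 1 0 * c 0 1)) *
        m 2) := by
  simp only [Matrix.det_fin_three, Matrix.of_apply, hm, Matrix.cons_val_zero,
    Matrix.cons_val_one, Matrix.cons_val]
  ring

end Vale.Agent.P287.R2.H622
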