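import Vale.Agent.P287.R2.H622.NotMem
import Vale.Agent.P287.R2.H414.Adapt
import Vale.Agent.P287.R2.H414.Dl
import Vale.Agent.P287.R2.H414.Count
import Vale.Agent.P287.R2.H992.NoSyz

/-!
P287 (helper622): at most twenty planes of a smooth cubic fourfold meet pairwise in one point.
-/

namespace Vale.Agent.P287.R2.H622

open Module Submodule
open Vale.Agent.P287.R2.H248

variable {V : Type*} [AddCommGroup V] [Module ℂ V] {S : Tri V}

lemma det_eq_one {e0 f e : Basis (Fin 3 ⊕ Fin 3) ℂ V} (hf : e0.det f = 1) (he : e0.det e = 1) :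
    f.det e = 1 := by
  have h := AlternatingMap.eq_smul_basis_det f e0.det
  rw [hf, one_smul] at h
  rw [← h]
  exact he

/-- two frames of volume one of a plane -/
lemma frame_two [FiniteDimensional ℂ V] {P Q : Submodule ℂ V} (hP : Pl S P)
    {e0 f e : Basis (Fin 3 ⊕ Fin 3) ℂ V} (hf : ∀ i, f (Sum.inl i) ∈ P)
    (he : ∀ i, e (Sum.inl i) ∈ P) (hf1 : e0.det f = 1) (he1 : e0.det e = 1) :
    dl S e - dl S f ∈ JS S Q :=
  JS_mono (frame_indep hP f e hf he (det_eq_one hf1 he1))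

/-- the forms of two planes that meet in one point, on the second plane -/
lemma pair_forms [FiniteDimensional ℂ V] (hV : finrank ℂ V = 6) (hS : S.Smooth)
    {P Q : Submodule ℂ V} (hP : Pl S P) (hQ : Pl S Q) (hPQ : finrank ℂ ↥(P ⊓ Q) = 1)
    {e0 f f' : Basis (Fin 3 ⊕ Fin 3) ℂ V} (hf : ∀ i, f (Sum.inl i) ∈ P)
    (hf' : ∀ i, f' (Sum.inl i) ∈ Q) (hf1 : e0.det f = 1) (hf1' : e0.det f' = 1) :
    dl S f' - (4 : ℂ) • dl S f ∈ JS S Q ∧ dl S f' ∉ JS S Q := by
  obtain ⟨e, e', he, he', hd, hd', h0, h1, h2, h3, h4, h5⟩ :=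
    H414.exists_pair_frame hV e0 hP.1 hQ.1 hPQ
  have k1 : dl S e - dl S f ∈ JS S Q := frame_two hP hf he hf1 hd
  have k2 : dl S e' - dl S f' ∈ JS S Q := frame_two hQ hf' he' hf1' hd'
  have k3 : dl S e' - (4 : ℂ) • dl S e ∈ JS S Q :=
    pair_identity hP hQ e e' he he' h0 h1 h2 h3 h4 h5
  have k4 : dl S e' ∉ JS S Q := not_mem_JS hS hP hQ e e' he he' h0 h1 h2 h3 h4 h5
  constructor
  · have h6 := (JS S Q).add_mem ((JS S Q).sub_mem k3 k2) ((JS S Q).smul_mem (4 : ℂ) k1)
    have h7 : dl S f' - (4 : ℂ) • dl S f =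
        (dl S e' - (4 : ℂ) • dl S e - (dl S e' - dl S f')) + (4 : ℂ) • (dl S e - dl S f) := by
      rw [smul_sub]
      abel
    rw [h7]
    exact h6
  · intro h
    apply k4
    have h6 := (JS S Q).add_mem k2 h
    rwa [sub_add_cancel] at h6

theorem le_twenty [FiniteDimensional ℂ V] (hV : finrank ℂ V = 6) (hS : S.Smooth) {N : ℕ}
    (p : Fin N → Submodule ℂ V) (hp : ∀ i, Pl S (p i))
    (hmeet : ∀ i j, i ≠ j → finrank ℂ ↥(p i ⊓ p j) = 1) : N ≤ 20 := by
  classical
  rcases le_or_gt N 1 with hN | hN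
  · omega
  let e0 : Basis (Fin 3 ⊕ Fin 3) ℂ V :=
    (finBasisOfFinrankEq ℂ V hV).reindex (finSumFinEquiv (m := 3) (n := 3)).symm
  have hfr : ∀ i, ∃ e : Basis (Fin 3 ⊕ Fin 3) ℂ V, (∀ l, e (Sum.inl l) ∈ p i) ∧ e0.det e = 1 :=
    fun i => H414.exists_frame hV e0 (hp i).1
  choose f hf hf1 using hfr
  refine H414.count hV S (fun A hA => H992.no_syz hS A hA) (fun j => dl S (f j))
    (fun j => H414.dl_mem S (f j)) ?_
  intro c A hA
  -- the relation on each plane
  have hrel : ∀ i, 3 * c i + ∑ j, c j = 0 := by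
    intro i
    by_contra hne
    have hpair : ∀ j, j ≠ i → dl S (f i) - (4 : ℂ) • dl S (f j) ∈ JS S (p i) ∧
        dl S (f i) ∉ JS S (p i) := fun j hj =>
      pair_forms hV hS (hp j) (hp i) (hmeet j i hj) (hf j) (hf i) (hf1 j) (hf1 i)
    obtain ⟨j0, hj0⟩ : ∃ j : Fin N, j ≠ i := by
      have : Nontrivial (Fin N) := Fin.nontrivial_iff_two_le.mpr hN
      exact exists_ne i
    have hf0 : (∑ j, c j • dl S (f j)) ∈ JS S (p i) := by
      refine ⟨A, fun x _ => ?_⟩
      rw [← hA x, Finset.sum_apply]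
      rfl
    have h1 : ∀ j, c j • (dl S (f i) - (4 : ℂ) • dl S (f j)) +
        (if j = i then (3 * c i) • dl S (f i) else 0) ∈ JS S (p i) := by
      intro j
      by_cases hj : j = i
      · subst hj
        rw [if_pos rfl]
        have h2 : c j • (dl S (f j) - (4 : ℂ) • dl S (f j)) + (3 * c j) • dl S (f j) = 0 := by
          rw [smul_sub, smul_smul]
          rw [← sub_smul, ← add_smul]
          have : c j - c j * 4 + 3 * c j = 0 := by ring
          rw [this, zero_smul]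
        rw [h2]
        exact (JS S (p j)).zero_mem
      · rw [if_neg hj, add_zero]
        exact (JS S (p i)).smul_mem _ (hpair j hj).1
    have h3 := (JS S (p i)).add_mem ((JS S (p i)).sum_mem fun j (_ : j ∈ Finset.univ) => h1 j)
      ((JS S (p i)).smul_mem (4 : ℂ) hf0)
    have h4 : ∑ j, (c j • (dl S (f i) - (4 : ℂ) • dl S (f j)) +
        (if j = i then (3 * c i) • dl S (f i) else 0)) + (4 : ℂ) • (∑ j, c j • dl S (f j)) =
        (3 * c i + ∑ j, c j) • dl S (f i) := by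
      rw [Finset.sum_add_distrib, Finset.sum_ite_eq' Finset.univ i, if_pos (Finset.mem_univ i)]
      simp only [smul_sub, Finset.sum_sub_distrib, ← Finset.sum_smul]
      rw [Finset.smul_sum]
      have h5 : ∀ j, c j • (4 : ℂ) • dl S (f j) = (4 : ℂ) • c j • dl S (f j) :=
        fun j => smul_comm _ _ _
      simp only [h5]
      rw [add_smul]
      abel
    rw [h4] at h3
    exact (hpair j0 hj0).2 (((JS S (p i)).smul_mem_iff hne).mp h3)
  have hsum : ∑ j, c j = 0 := by
    have h1 : ∑ i, (3 * c i + ∑ j, c j) = 0 := Finset.sum_eq_zero fun i _ => hrel i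
    rw [Finset.sum_add_distrib, ← Finset.mul_sum, Finset.sum_const, Finset.card_univ,
      Fintype.card_fin, nsmul_eq_mul, ← add_mul] at h1
    have h2 : (3 : ℂ) + (N : ℂ) ≠ 0 := by
      have : ((3 + N : ℕ) : ℂ) ≠ 0 := Nat.cast_ne_zero.mpr (by omega)
      push_cast at this
      exact this
    exact (mul_eq_zero.mp h1).resolve_left h2
  intro j
  have h1 := hrel j
  rw [hsum, add_zero] at h1
  exact (mul_eq_zero.mp h1).resolve_left (by norm_num)

end Vale.Agent.P287.R2.H622
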