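import Vale.Agent.P287.R2.H622.Geo
import Vale.Agent.P287.R2.H248.Polar
import Vale.Agent.P287.R2.H11.GQ

/-!
P287, part (2) (helper622, with helper11 and helper248): a smooth cubic fourfold with at least 28
planes, of which two meet in a line and none meets all the others in lines, contains two disjoint
planes.
-/

namespace Vale.Agent.P287.R2.H622

open Module Submodule
open Vale.Agent.P287.R2.H248

/-- two planes meet in a line -/
def Meet (P Q : Submodule ℂ A6) : Prop := finrank ℂ ↥(P ⊓ Q) = 2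

lemma isPlaneIn_iff {F : MvPolynomial (Fin 6) ℂ} (hF : IsCubicFourfold F) (P : Submodule ℂ A6) :
    IsPlaneIn F P ↔ Pl (pol F) P := by
  unfold IsPlaneIn Pl
  rw [pol_iso hF.1]

theorem third {F : MvPolynomial (Fin 6) ℂ} (hF : IsCubicFourfold F)
    (hno : ∀ P Q, IsPlaneIn F P → IsPlaneIn F Q → ¬ Disjoint P Q)
    {P Q : Submodule ℂ A6} (hP : IsPlaneIn F P) (hQ : IsPlaneIn F Q) (h : Meet P Q) :
    ∃ R, IsPlaneIn F R ∧ R ≠ P ∧ R ≠ Q ∧ Meet P R ∧ Meet Q R ∧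
      ∀ S', IsPlaneIn F S' → S' ≠ P → S' ≠ Q → S' ≠ R →
        (Meet S' P ∨ Meet S' Q ∨ Meet S' R) ∧ ¬ (Meet S' P ∧ Meet S' Q) ∧
          ¬ (Meet S' P ∧ Meet S' R) ∧ ¬ (Meet S' Q ∧ Meet S' R) := by
  have hV : finrank ℂ A6 = 6 := by simp [A6]
  have hno' : ∀ P Q, Pl (pol F) P → Pl (pol F) Q → ¬ Disjoint P Q := by
    intro P Q hP hQ
    exact hno P Q ((isPlaneIn_iff hF P).2 hP) ((isPlaneIn_iff hF Q).2 hQ)
  obtain ⟨R, hR, h1, h2, h3, h4, h5⟩ := third_tri hV (pol_smooth hF) hno'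
    ((isPlaneIn_iff hF P).1 hP) ((isPlaneIn_iff hF Q).1 hQ) h
  exact ⟨R, (isPlaneIn_iff hF R).2 hR, h1, h2, h3, h4,
    fun E hE => h5 E ((isPlaneIn_iff hF E).1 hE)⟩

/-- Two of at least 28 planes are disjoint. -/
theorem exists_disjoint_of_28 {F : MvPolynomial (Fin 6) ℂ} (hF : IsCubicFourfold F)
    (s : Finset (Submodule ℂ A6)) (hs : 28 ≤ s.card) (hsF : ∀ P ∈ s, IsPlaneIn F P)
    (hmeet : ∃ P Q, IsPlaneIn F P ∧ IsPlaneIn F Q ∧ finrank ℂ ↥(P ⊓ Q) = 2)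
    (hndg : ∀ P, IsPlaneIn F P → ∃ Q, IsPlaneIn F Q ∧ Q ≠ P ∧ finrank ℂ ↥(P ⊓ Q) ≠ 2) :
    ∃ P Q, IsPlaneIn F P ∧ IsPlaneIn F Q ∧ Disjoint P Q := by
  by_contra hcon
  have hno : ∀ P Q, IsPlaneIn F P → IsPlaneIn F Q → ¬ Disjoint P Q :=
    fun P Q hP hQ hd => hcon ⟨P, Q, hP, hQ, hd⟩
  have hle : s.card ≤ 27 := by
    refine H11.card_le_27_of_subtype (P := IsPlaneIn F)
      (adj := fun x y => Meet x.1 y.1) ?_ ?_ ?_ ?_ ?_ s hsF
    · intro x y hxy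
      change finrank ℂ ↥(y.1 ⊓ x.1) = 2
      rw [inf_comm]
      exact hxy
    · intro x hx
      have h1 : finrank ℂ ↥(x.1 ⊓ x.1) = 2 := hx
      rw [inf_idem, x.2.1] at h1
      omega
    · intro x y hxy
      obtain ⟨R, hR, h1, h2, h3, h4, h5⟩ := third hF hno x.2 y.2 hxy
      refine ⟨⟨R, hR⟩, fun h => h1 (congrArg Subtype.val h), fun h => h2 (congrArg Subtype.val h),
        h3, h4, ?_⟩
      intro w hwx hwy hwR
      exact h5 w.1 w.2 (fun h => hwx (Subtype.ext h)) (fun h => hwy (Subtype.ext h))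
        (fun h => hwR (Subtype.ext h))
    · intro x
      obtain ⟨Q, hQ, h1, h2⟩ := hndg x.1 x.2
      exact ⟨⟨Q, hQ⟩, fun h => h1 (congrArg Subtype.val h), h2⟩
    · obtain ⟨P, Q, hP, hQ, h1⟩ := hmeet
      exact ⟨⟨P, hP⟩, ⟨Q, hQ⟩, h1⟩
  omega

end Vale.Agent.P287.R2.H622
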