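import Vale.Agent.P287.R2.H622.Twenty
import Vale.Agent.P287.R2.H622.Planes28
import Vale.Agent.P287.R2.H62.Final42
import Vale.Agent.P287.R2.H414.Maps

/-!
P287 (helper622): cubic fourfolds with many planes: final statements.
-/

namespace Vale.Agent.P287.R2.H622

open MvPolynomial Submodule Module
open Vale.Agent.P287.R2.H248 Vale.Agent.P287.R2.H414

/-- Planes that meet pairwise in one point: at most twenty. -/
theorem card_le_twenty {F : MvPolynomial (Fin 6) ℂ} (hF : IsCubicFourfold F) (N : ℕ)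
    (p : Fin N → Submodule ℂ A6) (hp : ∀ i, IsPlaneIn F (p i))
    (hmeet : ∀ i j, i ≠ j → finrank ℂ ↥(p i ⊓ p j) = 1) : N ≤ 20 := by
  have hV : finrank ℂ A6 = 6 := by simp [A6]
  exact le_twenty hV (pol_smooth hF) p (fun i => (isPlaneIn_iff hF (p i)).1 (hp i)) hmeet

/-- Two disjoint planes make a smooth cubic fourfold rational. -/
theorem rational_of_two {F : MvPolynomial (Fin 6) ℂ} (hF : IsCubicFourfold F)
    {P Q : Submodule ℂ A6} (hP : IsPlaneIn F P) (hQ : IsPlaneIn F Q) (hd : Disjoint P Q) :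
    IsRational F :=
  rational_of_planes (pol_smooth hF) hP.1 hQ.1 ((pol_iso hF.1).mpr hP.2)
    ((pol_iso hF.1).mpr hQ.2) hd (fun v => (pol_three hF.1 v).symm)

/-- At least 42 planes. -/
theorem many {F : MvPolynomial (Fin 6) ℂ} (hF : IsCubicFourfold F)
    (s : Finset (Submodule ℂ A6)) (hs : 42 ≤ s.card) (hsF : ∀ P ∈ s, IsPlaneIn F P) :
    (∃ P Q, IsPlaneIn F P ∧ IsPlaneIn F Q ∧ Disjoint P Q) ∧ IsRational F := by
  have h : ∃ P Q, IsPlaneIn F P ∧ IsPlaneIn F Q ∧ Disjoint P Q := by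
    by_contra hcon
    have hno : ∀ P Q, IsPlaneIn F P → IsPlaneIn F Q → ¬ Disjoint P Q :=
      fun P Q hP hQ hd => hcon ⟨P, Q, hP, hQ, hd⟩
    have := H62.le_41 hF hno (card_le_twenty hF) s hsF
    omega
  refine ⟨h, ?_⟩
  obtain ⟨P, Q, hP, hQ, hd⟩ := h
  exact rational_of_two hF hP hQ hd

/-- At least 21 planes, no two of which meet in a line. -/
theorem twenty_one {F : MvPolynomial (Fin 6) ℂ} (hF : IsCubicFourfold F)
    (s : Finset (Submodule ℂ A6)) (hs : 21 ≤ s.card) (hsF : ∀ P ∈ s, IsPlaneIn F P)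
    (hm : ∀ P ∈ s, ∀ Q ∈ s, P ≠ Q → finrank ℂ ↥(P ⊓ Q) ≠ 2) :
    (∃ P ∈ s, ∃ Q ∈ s, Disjoint P Q) ∧ IsRational F := by
  have h : ∃ P ∈ s, ∃ Q ∈ s, Disjoint P Q := by
    by_contra hcon
    push Not at hcon
    have h20 : s.card ≤ 20 := by
      refine card_le_twenty hF s.card (fun i => (s.equivFin.symm i).1)
        (fun i => hsF _ (s.equivFin.symm i).2) ?_
      intro i j hij
      have hne : (s.equivFin.symm i).1 ≠ (s.equivFin.symm j).1 :=
        fun h => hij (s.equivFin.symm.injective (Subtype.ext h))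
      set P := (s.equivFin.symm i).1
      set Q := (s.equivFin.symm j).1
      have hPs : P ∈ s := (s.equivFin.symm i).2
      have hQs : Q ∈ s := (s.equivFin.symm j).2
      have h2 := hm P hPs Q hQs hne
      have h0 : finrank ℂ ↥(P ⊓ Q) ≠ 0 := by
        intro h
        rw [Submodule.finrank_eq_zero] at h
        exact hcon P hPs Q hQs (disjoint_iff.mpr h)
      have h3 : finrank ℂ ↥(P ⊓ Q) ≤ 3 := by
        rw [← (hsF P hPs).1]
        exact Submodule.finrank_mono inf_le_left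
      have h4 : finrank ℂ ↥(P ⊓ Q) ≠ 3 := by
        intro h
        have e1 : P ⊓ Q = P :=
          Submodule.eq_of_le_of_finrank_eq inf_le_left (by rw [h, (hsF P hPs).1])
        have e2 : P ⊓ Q = Q :=
          Submodule.eq_of_le_of_finrank_eq inf_le_right (by rw [h, (hsF Q hQs).1])
        exact hne (e1.symm.trans e2)
      change finrank ℂ ↥(P ⊓ Q) = 1
      omega
    omega
  refine ⟨h, ?_⟩
  obtain ⟨P, hP, Q, hQ, hd⟩ := h
  exact rational_of_two hF (hsF P hP) (hsF Q hQ) hd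

/-- At least 28 planes, none of which meets all the other planes of `X` in lines. -/
theorem twenty_eight {F : MvPolynomial (Fin 6) ℂ} (hF : IsCubicFourfold F)
    (s : Finset (Submodule ℂ A6)) (hs : 28 ≤ s.card) (hsF : ∀ P ∈ s, IsPlaneIn F P)
    (hndg : ∀ P, IsPlaneIn F P → ∃ Q, IsPlaneIn F Q ∧ Q ≠ P ∧ finrank ℂ ↥(P ⊓ Q) ≠ 2) :
    (∃ P Q, IsPlaneIn F P ∧ IsPlaneIn F Q ∧ Disjoint P Q) ∧ IsRational F := by
  have h : ∃ P Q, IsPlaneIn F P ∧ IsPlaneIn F Q ∧ Disjoint P Q := by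
    by_cases hmeet : ∃ P Q, IsPlaneIn F P ∧ IsPlaneIn F Q ∧ finrank ℂ ↥(P ⊓ Q) = 2
    · exact exists_disjoint_of_28 hF s hs hsF hmeet hndg
    · obtain ⟨P, hP, Q, hQ, hd⟩ := (twenty_one hF s (by omega) hsF
        (fun P hP Q hQ _ h2 => hmeet ⟨P, Q, hsF P hP, hsF Q hQ, h2⟩)).1
      exact ⟨P, Q, hsF P hP, hsF Q hQ, hd⟩
  refine ⟨h, ?_⟩
  obtain ⟨P, Q, hP, hQ, hd⟩ := h
  exact rational_of_two hF hP hQ hd

end Vale.Agent.P287.R2.H622
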