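import Vale.Agent.P287.R2.H248.Lines

/-!
P287, part (2), geometry (helper622): three planes of a smooth cubic fourfold in a three-space.
Everything is stated for a symmetric trilinear form on a six-dimensional space.
-/

namespace Vale.Agent.P287.R2.H622

open Module Submodule
open Vale.Agent.P287.R2.H248

variable {V : Type*} [AddCommGroup V] [Module ℂ V] {S : Tri V}

/-- (the cone over) a plane contained in the cubic hypersurface -/
def Pl (S : Tri V) (P : Submodule ℂ V) : Prop := finrank ℂ P = 3 ∧ S.Iso P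

/-- a pencil of symmetric bilinear forms on a nonzero space has a degenerate member -/
lemma exists_degenerate [FiniteDimensional ℂ V] (S : Tri V) {P : Submodule ℂ V}
    (hP : 0 < finrank ℂ P) (w1 w2 : V) :
    ∃ w w' : V, (∀ v, S.T v v w = 0 → S.T v v w' = 0 → S.T v v w1 = 0 ∧ S.T v v w2 = 0) ∧
      ∃ k ∈ P, k ≠ 0 ∧ ∀ u ∈ P, S.T w k u = 0 := by
  by_cases hinj : Function.Injective ((S.T w2).domRestrict₁₂ P P)
  · have hfr : finrank ℂ P = finrank ℂ (Module.Dual ℂ P) := (Subspace.dual_finrank_eq).symm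
    let E : P ≃ₗ[ℂ] Module.Dual ℂ P := LinearMap.linearEquivOfInjective _ hinj hfr
    let f : Module.End ℂ P := E.symm.toLinearMap ∘ₗ ((S.T w1).domRestrict₁₂ P P)
    have : Nontrivial P := Module.finrank_pos_iff.mp hP
    obtain ⟨c, hc⟩ := Module.End.exists_eigenvalue f
    obtain ⟨k, hk⟩ := hc.exists_hasEigenvector
    refine ⟨w1 - c • w2, w2, ?_, k, k.2, ?_, ?_⟩
    · intro v h1 h2
      rw [map_sub, map_smul, h2, smul_zero, sub_zero] at h1
      exact ⟨h1, h2⟩
    · intro h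
      exact hk.2 (Subtype.ext h)
    · intro u hu
      have h1 : f k = c • k := hk.apply_eq_smul
      have h2 : E (f k) = c • E k := by rw [h1, map_smul]
      have h3 : E (f k) = (S.T w1).domRestrict₁₂ P P k := E.apply_symm_apply _
      have h4 := LinearMap.congr_fun (h3.symm.trans h2) ⟨u, hu⟩
      have h5 : S.T w1 k u = c * S.T w2 k u := h4
      simp only [map_sub, map_smul, LinearMap.sub_apply, LinearMap.smul_apply, smul_eq_mul, h5,
        sub_self]
  · have h1 : ∃ k : P, (S.T w2).domRestrict₁₂ P P k = 0 ∧ k ≠ 0 := by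
      by_contra hcon
      push Not at hcon
      apply hinj
      rw [← LinearMap.ker_eq_bot, LinearMap.ker_eq_bot']
      exact hcon
    obtain ⟨k, hk, hk0⟩ := h1
    refine ⟨w2, w1, fun v h1 h2 => ⟨h2, h1⟩, k, k.2, ?_, ?_⟩
    · intro h
      exact hk0 (Subtype.ext h)
    · intro u hu
      exact LinearMap.congr_fun hk ⟨u, hu⟩

/-- two quadrics in a plane have a common point -/
lemma common_zero [FiniteDimensional ℂ V] (S : Tri V) {P : Submodule ℂ V}
    (hP : finrank ℂ P = 3) (w1 w2 : V) :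
    ∃ v ∈ P, v ≠ 0 ∧ S.T v v w1 = 0 ∧ S.T v v w2 = 0 := by
  obtain ⟨w, w', hw, k, hk, hk0, hku⟩ := exists_degenerate S (P := P) (by omega) w1 w2
  -- two more vectors of a basis
  have h1 : ¬ P ≤ span ℂ {k} := by
    intro h
    have := Submodule.finrank_mono h
    rw [hP, finrank_span_singleton hk0] at this
    omega
  obtain ⟨a, ha, ha2⟩ := Set.not_subset.mp h1
  have h2 : finrank ℂ ↥(span ℂ {k} ⊔ span ℂ {a}) = 2 := by
    rw [finrank_sup_single ha2, finrank_span_singleton hk0]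
  have h3 : ¬ P ≤ span ℂ {k} ⊔ span ℂ {a} := by
    intro h
    have := Submodule.finrank_mono h
    rw [hP, h2] at this
    omega
  obtain ⟨b, hb, hb2⟩ := Set.not_subset.mp h3
  obtain ⟨s, r, hsr, hq⟩ := quad_zero (S.T a a w) (S.T a b w) (S.T b b w)
  have hu : s • a + r • b ∈ P := P.add_mem (P.smul_mem _ ha) (P.smul_mem _ hb)
  have huk : s • a + r • b ∉ span ℂ {k} := by
    intro h
    by_cases hr : r = 0
    · have hs : s ≠ 0 := by
        rcases hsr with h | h
        · exact h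
        · exact absurd hr h
      rw [hr, zero_smul, add_zero] at h
      exact ha2 (((span ℂ {k}).smul_mem_iff hs).mp h)
    · apply hb2
      have h4 : r • b ∈ span ℂ {k} ⊔ span ℂ {a} := by
        have h5 : r • b = (s • a + r • b) - s • a := by abel
        rw [h5]
        apply Submodule.sub_mem
        · exact Submodule.mem_sup_left h
        · exact Submodule.mem_sup_right (Submodule.smul_mem _ _ (mem_span_singleton_self a))
      exact ((span ℂ {k} ⊔ span ℂ {a}).smul_mem_iff hr).mp h4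
  have huw : S.T (s • a + r • b) (s • a + r • b) w = 0 := by
    rw [S.sq_add]; exact hq
  set u := s • a + r • b with hudef
  obtain ⟨s', r', hsr', hq'⟩ := quad_zero (S.T k k w') (S.T k u w') (S.T u u w')
  have hkw : ∀ x ∈ P, S.T k x w = 0 := by
    intro x hx
    rw [← S.cyc w k x]
    exact hku x hx
  refine ⟨s' • k + r' • u, P.add_mem (P.smul_mem _ hk) (P.smul_mem _ hu), ?_, ?_⟩
  · intro h
    by_cases hr : r' = 0
    · have hs : s' ≠ 0 := by
        rcases hsr' with h | h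
        · exact h
        · exact absurd hr h
      rw [hr, zero_smul, add_zero] at h
      exact hk0 ((smul_eq_zero.mp h).resolve_left hs)
    · apply huk
      have h5 : r' • u = -(s' • k) := by
        rw [eq_neg_iff_add_eq_zero, add_comm]; exact h
      have h6 : r' • u ∈ span ℂ {k} := by
        rw [h5]
        exact Submodule.neg_mem _ (Submodule.smul_mem _ _ (mem_span_singleton_self k))
      exact ((span ℂ {k}).smul_mem_iff hr).mp h6
  · apply hw
    · rw [S.sq_add, hkw k hk, hkw u hu, huw]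
      ring
    · rw [S.sq_add]
      exact hq'

/-- The vectors `w` with `T v v w = 0`. -/
noncomputable def tang (S : Tri V) (v : V) : Submodule ℂ V := LinearMap.ker (S.T v v)

lemma mem_tang {v w : V} : w ∈ tang S v ↔ S.T v v w = 0 := Iff.rfl

lemma le_tang {P : Submodule ℂ V} (h : S.Iso P) {v : V} (hv : v ∈ P) : P ≤ tang S v :=
  fun _ hw => h.two hv hw

lemma tang_top (hS : S.Smooth) {v : V} (h : tang S v = ⊤) : v = 0 := by
  apply hS
  intro w
  have : w ∈ tang S v := by rw [h]; trivial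
  exact this

/-- Lemma A: the quadric cut out on a plane by a point outside is not everything. -/
lemma not_all [FiniteDimensional ℂ V] (hV : finrank ℂ V = 6) (hS : S.Smooth)
    {P : Submodule ℂ V} (hP : Pl S P) {q : V} (hq : q ∉ P) : ∃ v ∈ P, S.T v v q ≠ 0 := by
  by_contra hcon
  push Not at hcon
  have h1 := finrank_sup_single hq
  rw [hP.1] at h1
  obtain ⟨w1, hw1⟩ := exists_not_mem (U := P ⊔ span ℂ {q}) (by omega)
  have h2 := finrank_sup_single hw1
  rw [h1] at h2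
  obtain ⟨w2, hw2⟩ := exists_not_mem (U := P ⊔ span ℂ {q} ⊔ span ℂ {w1}) (by omega)
  have h3 := finrank_sup_single hw2
  rw [h2] at h3
  have h4 : P ⊔ span ℂ {q} ⊔ span ℂ {w1} ⊔ span ℂ {w2} = ⊤ := by
    apply Submodule.eq_top_of_finrank_eq
    omega
  obtain ⟨v, hv, hv0, hv1, hv2⟩ := common_zero S hP.1 w1 w2
  apply hv0
  apply tang_top hS
  rw [eq_top_iff, ← h4]
  refine sup_le (sup_le (sup_le (le_tang hP.2 hv) ?_) ?_) ?_
  · rw [span_singleton_le_iff_mem]; exact hcon v hv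
  · rw [span_singleton_le_iff_mem]; exact hv1
  · rw [span_singleton_le_iff_mem]; exact hv2

/-- Lemma B: the tangent hyperplanes along a line do not share a hyperplane. -/
lemma no_line [FiniteDimensional ℂ V] (hV : finrank ℂ V = 6) (hS : S.Smooth)
    {D N : Submodule ℂ V} (hD : finrank ℂ D = 2) (hN : 5 ≤ finrank ℂ N)
    (h : ∀ v ∈ D, N ≤ tang S v) : False := by
  have hD0 : ∃ k ∈ D, k ≠ 0 := by
    by_contra hcon
    push Not at hcon
    rw [(Submodule.eq_bot_iff D).mpr hcon, finrank_bot] at hD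
    omega
  obtain ⟨k, hk, hk0⟩ := hD0
  obtain ⟨e, he, hek, -⟩ := exists_pair hD hk hk0
  by_cases hN5 : finrank ℂ N = 6
  · have hNt : N = ⊤ := Submodule.eq_top_of_finrank_eq (by omega)
    apply hk0
    apply tang_top hS
    rw [eq_top_iff, ← hNt]
    exact h k hk
  · have hle := Submodule.finrank_le N
    obtain ⟨w, hw⟩ := exists_not_mem (U := N) (by omega)
    have h1 := finrank_sup_single hw
    have h2 : N ⊔ span ℂ {w} = ⊤ := by
      apply Submodule.eq_top_of_finrank_eq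
      omega
    obtain ⟨s, r, hsr, hq⟩ := quad_zero (S.T k k w) (S.T k e w) (S.T e e w)
    have hv : s • k + r • e ∈ D := D.add_mem (D.smul_mem _ hk) (D.smul_mem _ he)
    have hv0 : s • k + r • e = 0 := by
      apply tang_top hS
      rw [eq_top_iff, ← h2]
      refine sup_le (h _ hv) ?_
      rw [span_singleton_le_iff_mem, mem_tang, S.sq_add]
      exact hq
    by_cases hr : r = 0
    · have hs : s ≠ 0 := by
        rcases hsr with h | h
        · exact h
        · exact absurd hr h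
      rw [hr, zero_smul, add_zero] at hv0
      exact hk0 ((smul_eq_zero.mp hv0).resolve_left hs)
    · apply hek
      have h5 : r • e = -(s • k) := by
        rw [eq_neg_iff_add_eq_zero, add_comm]; exact hv0
      have h6 : r • e ∈ span ℂ {k} := by
        rw [h5]
        exact Submodule.neg_mem _ (Submodule.smul_mem _ _ (mem_span_singleton_self k))
      exact ((span ℂ {k}).smul_mem_iff hr).mp h6

lemma finrank_inf_ker [FiniteDimensional ℂ V] {W : Submodule ℂ V} {l : V →ₗ[ℂ] ℂ} {w : V}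
    (hw : w ∈ W) (hl : l w ≠ 0) : finrank ℂ ↥(W ⊓ LinearMap.ker l) + 1 = finrank ℂ W := by
  have h1 : w ∉ W ⊓ LinearMap.ker l := fun h => hl h.2
  have h3 : W ⊓ LinearMap.ker l ⊔ span ℂ {w} = W := by
    apply le_antisymm
    · refine sup_le inf_le_left ?_
      rw [span_singleton_le_iff_mem]; exact hw
    · intro x hx
      have h2 : x = (x - (l x / l w) • w) + (l x / l w) • w := by abel
      rw [h2]
      apply Submodule.add_mem_sup
      · refine ⟨W.sub_mem hx (W.smul_mem _ hw), ?_⟩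
        change l (x - (l x / l w) • w) = 0
        rw [map_sub, map_smul, smul_eq_mul, div_mul_cancel₀ _ hl, sub_self]
      · exact Submodule.smul_mem _ _ (mem_span_singleton_self w)
  rw [← finrank_sup_single h1, h3]

/-- a functional vanishing on a subspace with value one at a vector outside -/
lemma exists_functional {U : Submodule ℂ V} {p : V} (hp : p ∉ U) :
    ∃ f : V →ₗ[ℂ] ℂ, f p = 1 ∧ ∀ u ∈ U, f u = 0 := by
  obtain ⟨f, hf, hU⟩ := Submodule.exists_le_ker_of_notMem hp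
  refine ⟨(f p)⁻¹ • f, ?_, ?_⟩
  · rw [LinearMap.smul_apply, smul_eq_mul, inv_mul_cancel₀ hf]
  · intro u hu
    rw [LinearMap.smul_apply, smul_eq_mul, LinearMap.mem_ker.mp (hU hu), mul_zero]

/-- The three planes in the span of two planes that meet in a line. -/
structure Triple (S : Tri V) (P Q R W : Submodule ℂ V) : Prop where
  p : Pl S P
  q : Pl S Q
  r : Pl S R
  w : finrank ℂ W = 4
  pw : P ≤ W
  qw : Q ≤ W
  rw : R ≤ W
  pq : finrank ℂ ↥(P ⊓ Q) = 2
  pr : finrank ℂ ↥(P ⊓ R) = 2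
  qr : finrank ℂ ↥(Q ⊓ R) = 2
  all : ∀ x ∈ W, S.T x x x = 0 → x ∈ P ∨ x ∈ Q ∨ x ∈ R

lemma cube_three (S : Tri V) (x p q : V) (a b : ℂ) (h1 : S.T x x x = 0) (h2 : S.T x x p = 0)
    (h3 : S.T x p p = 0) (h4 : S.T p p p = 0) (h5 : S.T x x q = 0) (h6 : S.T x q q = 0)
    (h7 : S.T q q q = 0) :
    S.T (x + a • p + b • q) (x + a • p + b • q) (x + a • p + b • q) =
      3 * a * b * (2 * S.T x p q + a * S.T p p q + b * S.T p q q) := by
  have e1 : S.T x p x = 0 := by rw [S.s23]; exact h2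
  have e2 : S.T p x x = 0 := by rw [S.s12]; exact e1
  have e3 : S.T p x p = 0 := by rw [S.s12]; exact h3
  have e4 : S.T p p x = 0 := by rw [S.s23]; exact e3
  have e5 : S.T x q x = 0 := by rw [S.s23]; exact h5
  have e6 : S.T q x x = 0 := by rw [S.s12]; exact e5
  have e7 : S.T q x q = 0 := by rw [S.s12]; exact h6
  have e8 : S.T q q x = 0 := by rw [S.s23]; exact e7
  have f1 : S.T x q p = S.T x p q := S.s23 _ _ _
  have f2 : S.T p x q = S.T x p q := S.s12 _ _ _
  have f3 : S.T p q x = S.T x p q := by rw [S.s23]; exact f2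
  have f4 : S.T q x p = S.T x p q := by rw [S.s12]; exact f1
  have f5 : S.T q p x = S.T x p q := by rw [S.s23]; exact f4
  have g1 : S.T p q p = S.T p p q := S.s23 _ _ _
  have g2 : S.T q p p = S.T p p q := by rw [S.s12]; exact g1
  have g3 : S.T q p q = S.T p q q := S.s12 _ _ _
  have g4 : S.T q q p = S.T p q q := by rw [S.s23]; exact g3
  simp only [map_add, map_smul, LinearMap.add_apply, LinearMap.smul_apply, smul_eq_mul,
    h1, h2, h3, h4, h5, h6, h7, e1, e2, e3, e4, e5, e6, e7, e8, f1, f2, f3, f4, f5, g1, g2, g3, g4]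
  ring

theorem exists_triple [FiniteDimensional ℂ V] (hV : finrank ℂ V = 6) (hS : S.Smooth)
    {P Q : Submodule ℂ V} (hP : Pl S P) (hQ : Pl S Q) (hPQ : finrank ℂ ↥(P ⊓ Q) = 2) :
    ∃ R, Triple S P Q R (P ⊔ Q) := by
  have hPQ' : ¬ P ≤ Q := by
    intro h
    rw [inf_eq_left.mpr h, hP.1] at hPQ
    omega
  have hQP' : ¬ Q ≤ P := by
    intro h
    rw [inf_eq_right.mpr h, hQ.1] at hPQ
    omega
  obtain ⟨p, hp, hpQ⟩ := Set.not_subset.mp hPQ'
  obtain ⟨q, hq, hqP⟩ := Set.not_subset.mp hQP'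
  obtain ⟨f, hfp, hfQ⟩ := exists_functional hpQ
  obtain ⟨g, hgq, hgP⟩ := exists_functional hqP
  have hW := Submodule.finrank_sup_add_finrank_inf_eq P Q
  rw [hP.1, hQ.1, hPQ] at hW
  have hW4 : finrank ℂ ↥(P ⊔ Q) = 4 := by omega
  -- the decomposition of P, Q and W
  have hpL : p ∉ P ⊓ Q := fun h => hpQ h.2
  have hqL : q ∉ P ⊓ Q := fun h => hqP h.1
  have hPL : P ⊓ Q ⊔ span ℂ {p} = P := by
    apply Submodule.eq_of_le_of_finrank_eq
    · refine sup_le inf_le_left ?_
      rw [span_singleton_le_iff_mem]; exact hp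
    · rw [finrank_sup_single hpL, hPQ, hP.1]
  have hQL : P ⊓ Q ⊔ span ℂ {q} = Q := by
    apply Submodule.eq_of_le_of_finrank_eq
    · refine sup_le inf_le_right ?_
      rw [span_singleton_le_iff_mem]; exact hq
    · rw [finrank_sup_single hqL, hPQ, hQ.1]
  have decP : ∀ v ∈ P, ∃ x ∈ P ⊓ Q, ∃ a : ℂ, v = x + a • p := by
    intro v hv
    rw [← hPL] at hv
    obtain ⟨x, hx, y, hy, rfl⟩ := mem_sup.mp hv
    obtain ⟨a, rfl⟩ := mem_span_singleton.mp hy
    exact ⟨x, hx, a, rfl⟩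
  have decQ : ∀ v ∈ Q, ∃ x ∈ P ⊓ Q, ∃ a : ℂ, v = x + a • q := by
    intro v hv
    rw [← hQL] at hv
    obtain ⟨x, hx, y, hy, rfl⟩ := mem_sup.mp hv
    obtain ⟨a, rfl⟩ := mem_span_singleton.mp hy
    exact ⟨x, hx, a, rfl⟩
  have decW : ∀ v ∈ P ⊔ Q, ∃ x ∈ P ⊓ Q, ∃ a b : ℂ, v = x + a • p + b • q := by
    intro v hv
    obtain ⟨y, hy, z, hz, rfl⟩ := mem_sup.mp hv
    obtain ⟨x, hx, a, rfl⟩ := decP y hy
    obtain ⟨x', hx', b, rfl⟩ := decQ z hz
    exact ⟨x + x', Submodule.add_mem _ hx hx', a, b, by abel⟩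
  let l : V →ₗ[ℂ] ℂ := (2 : ℂ) • S.T p q - (S.T p p q) • f - (S.T p q q) • g
  have hl : ∀ v, l v = 2 * S.T p q v - S.T p p q * f v - S.T p q q * g v := fun v => rfl
  have vals : ∀ x ∈ P ⊓ Q, ∀ a b : ℂ, f (x + a • p + b • q) = a ∧ g (x + a • p + b • q) = b ∧
      l (x + a • p + b • q) = 2 * S.T x p q + a * S.T p p q + b * S.T p q q := by
    intro x hx a b
    have h1 : f (x + a • p + b • q) = a := by
      rw [map_add, map_add, map_smul, map_smul, hfp, hfQ x hx.2, hfQ q hq]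
      simp
    have h2 : g (x + a • p + b • q) = b := by
      rw [map_add, map_add, map_smul, map_smul, hgq, hgP x hx.1, hgP p hp]
      simp
    refine ⟨h1, h2, ?_⟩
    rw [hl, h1, h2]
    simp only [map_add, map_smul, smul_eq_mul]
    rw [← S.cyc x p q, S.s23 p q p]
    ring
  have cube : ∀ x ∈ P ⊓ Q, ∀ a b : ℂ,
      S.T (x + a • p + b • q) (x + a • p + b • q) (x + a • p + b • q) =
      3 * a * b * (2 * S.T x p q + a * S.T p p q + b * S.T p q q) := by
    intro x hx a b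
    exact cube_three S x p q a b (hP.2 x hx.1) (hP.2.three hx.1 hx.1 hp) (hP.2.three hx.1 hp hp)
      (hP.2 p hp) (hQ.2.three hx.2 hx.2 hq) (hQ.2.three hx.2 hq hq) (hQ.2 q hq)
  -- the linear form is nonzero on P and on Q
  have hlP : ∃ v ∈ P, l v ≠ 0 := by
    obtain ⟨v, hv, hv1⟩ := not_all hV hS hP hqP
    refine ⟨v, hv, fun h => hv1 ?_⟩
    obtain ⟨x, hx, a, rfl⟩ := decP v hv
    have h1 := (vals x hx a 0).2.2
    rw [zero_smul, add_zero, h] at h1
    have h2 := S.sq_add 1 a x p q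
    rw [one_smul, hQ.2.three hx.2 hx.2 hq] at h2
    rw [h2]
    linear_combination (-a) * h1
  have hlQ : ∃ v ∈ Q, l v ≠ 0 := by
    obtain ⟨v, hv, hv1⟩ := not_all hV hS hQ hpQ
    refine ⟨v, hv, fun h => hv1 ?_⟩
    obtain ⟨x, hx, b, rfl⟩ := decQ v hv
    have h1 := (vals x hx 0 b).2.2
    rw [zero_smul, add_zero, h] at h1
    have h2 := S.sq_add 1 b x q p
    rw [one_smul, hP.2.three hx.1 hx.1 hp, S.s23 x q p, ← S.cyc p q q] at h2
    rw [h2]
    linear_combination (-b) * h1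
  obtain ⟨vP, hvP, hvPl⟩ := hlP
  obtain ⟨vQ, hvQ, hvQl⟩ := hlQ
  refine ⟨(P ⊔ Q) ⊓ LinearMap.ker l, ⟨hP, hQ, ⟨?_, ?_⟩, hW4, le_sup_left, le_sup_right,
    inf_le_left, hPQ, ?_, ?_, ?_⟩⟩
  · have := finrank_inf_ker (W := P ⊔ Q) (Submodule.mem_sup_left hvP) hvPl
    omega
  · rintro u ⟨hu, hul⟩
    obtain ⟨x, hx, a, b, rfl⟩ := decW u hu
    rw [cube x hx a b]
    have h1 := (vals x hx a b).2.2
    have hul' : l (x + a • p + b • q) = 0 := hul
    rw [hul'] at h1
    rw [← h1, mul_zero]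
  · rw [← inf_assoc, inf_eq_left.mpr (le_sup_left : P ≤ P ⊔ Q)]
    have := finrank_inf_ker (W := P) hvP hvPl
    rw [hP.1] at this
    omega
  · rw [← inf_assoc, inf_eq_left.mpr (le_sup_right : Q ≤ P ⊔ Q)]
    have := finrank_inf_ker (W := Q) hvQ hvQl
    rw [hQ.1] at this
    omega
  · intro u hu hu3
    obtain ⟨x, hx, a, b, rfl⟩ := decW u hu
    rw [cube x hx a b] at hu3
    by_cases ha : a = 0
    · right; left
      rw [ha, zero_smul, add_zero]
      exact Q.add_mem hx.2 (Q.smul_mem _ hq)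
    · by_cases hb : b = 0
      · left
        rw [hb, zero_smul, add_zero]
        exact P.add_mem hx.1 (P.smul_mem _ hp)
      · right; right
        refine ⟨hu, ?_⟩
        change l (x + a • p + b • q) = 0
        rw [(vals x hx a b).2.2]
        have h3 : (3 : ℂ) * a * b ≠ 0 := by
          apply mul_ne_zero (mul_ne_zero (by norm_num) ha) hb
        exact (mul_eq_zero.mp hu3).resolve_left h3

lemma le_of_union [FiniteDimensional ℂ V] {D P Q R : Submodule ℂ V}
    (h : ∀ x ∈ D, x ∈ P ∨ x ∈ Q ∨ x ∈ R) : D ≤ P ∨ D ≤ Q ∨ D ≤ R := by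
  have h1 : (⋃ i : Fin 3, ((![P.comap D.subtype, Q.comap D.subtype, R.comap D.subtype] i :
      Submodule ℂ D) : Set D)) = Set.univ := by
    rw [Set.eq_univ_iff_forall]
    intro x
    rw [Set.mem_iUnion]
    rcases h x x.2 with h | h | h
    · exact ⟨0, h⟩
    · exact ⟨1, h⟩
    · exact ⟨2, h⟩
  obtain ⟨i, hi⟩ := Subspace.exists_eq_top_of_iUnion_eq_univ h1
  fin_cases i
  · left
    intro x hx
    have : (⟨x, hx⟩ : D) ∈ P.comap D.subtype := by
      have h2 : P.comap D.subtype = ⊤ := hi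
      rw [h2]; trivial
    exact this
  · right; left
    intro x hx
    have : (⟨x, hx⟩ : D) ∈ Q.comap D.subtype := by
      have h2 : Q.comap D.subtype = ⊤ := hi
      rw [h2]; trivial
    exact this
  · right; right
    intro x hx
    have : (⟨x, hx⟩ : D) ∈ R.comap D.subtype := by
      have h2 : R.comap D.subtype = ⊤ := hi
      rw [h2]; trivial
    exact this

lemma sup_eq_of_meet [FiniteDimensional ℂ V] {X Y W : Submodule ℂ V} (hX : finrank ℂ X = 3)
    (hY : finrank ℂ Y = 3) (hW : finrank ℂ W = 4) (hXW : X ≤ W) (hYW : Y ≤ W)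
    (hXY : finrank ℂ ↥(X ⊓ Y) = 2) : X ⊔ Y = W := by
  apply Submodule.eq_of_le_of_finrank_eq (sup_le hXW hYW)
  have := Submodule.finrank_sup_add_finrank_inf_eq X Y
  omega

/-- The third plane of a meeting pair, and the other planes. -/
theorem third_tri [FiniteDimensional ℂ V] (hV : finrank ℂ V = 6) (hS : S.Smooth)
    (hno : ∀ P Q, Pl S P → Pl S Q → ¬ Disjoint P Q)
    {P Q : Submodule ℂ V} (hP : Pl S P) (hQ : Pl S Q) (hPQ : finrank ℂ ↥(P ⊓ Q) = 2) :
    ∃ R, Pl S R ∧ R ≠ P ∧ R ≠ Q ∧ finrank ℂ ↥(P ⊓ R) = 2 ∧ finrank ℂ ↥(Q ⊓ R) = 2 ∧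
      ∀ E, Pl S E → E ≠ P → E ≠ Q → E ≠ R →
        (finrank ℂ ↥(E ⊓ P) = 2 ∨ finrank ℂ ↥(E ⊓ Q) = 2 ∨ finrank ℂ ↥(E ⊓ R) = 2) ∧
        ¬ (finrank ℂ ↥(E ⊓ P) = 2 ∧ finrank ℂ ↥(E ⊓ Q) = 2) ∧
        ¬ (finrank ℂ ↥(E ⊓ P) = 2 ∧ finrank ℂ ↥(E ⊓ R) = 2) ∧
        ¬ (finrank ℂ ↥(E ⊓ Q) = 2 ∧ finrank ℂ ↥(E ⊓ R) = 2) := by
  obtain ⟨R, hR⟩ := exists_triple hV hS hP hQ hPQ
  refine ⟨R, hR.r, ?_, ?_, hR.pr, hR.qr, ?_⟩
  · rintro rfl
    have := hR.pr
    rw [inf_idem, hR.p.1] at this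
    omega
  · rintro rfl
    have := hR.qr
    rw [inf_idem, hR.q.1] at this
    omega
  intro E hE hEP hEQ hER
  set W := P ⊔ Q with hWdef
  -- the intersection with the three-space
  have hDle : E ⊓ W ≤ P ∨ E ⊓ W ≤ Q ∨ E ⊓ W ≤ R :=
    le_of_union fun x hx => hR.all x hx.2 (hE.2 x hx.1)
  have hd := Submodule.finrank_sup_add_finrank_inf_eq E W
  rw [hE.1, hR.w] at hd
  have hd6 := Submodule.finrank_le (E ⊔ W)
  rw [hV] at hd6
  have hd3 : finrank ℂ ↥(E ⊓ W) ≤ 3 := by
    rw [← hE.1]; exact Submodule.finrank_mono inf_le_left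
  have hne3 : finrank ℂ ↥(E ⊓ W) ≠ 3 := by
    intro h3
    have h4 : E ⊓ W = E := Submodule.eq_of_le_of_finrank_eq inf_le_left (by rw [h3, hE.1])
    rw [h4] at hDle
    rcases hDle with h | h | h
    · exact hEP (Submodule.eq_of_le_of_finrank_eq h (by rw [hE.1, hR.p.1]))
    · exact hEQ (Submodule.eq_of_le_of_finrank_eq h (by rw [hE.1, hR.q.1]))
    · exact hER (Submodule.eq_of_le_of_finrank_eq h (by rw [hE.1, hR.r.1]))
  have hne1 : finrank ℂ ↥(E ⊓ W) ≠ 1 := by
    intro h1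
    have hnoP := hno E P hE hP
    have hnoQ := hno E Q hE hQ
    rw [disjoint_iff] at hnoP hnoQ
    obtain ⟨d, hdm, hd0⟩ := (Submodule.ne_bot_iff _).mp hnoP
    obtain ⟨d', hdm', hd0'⟩ := (Submodule.ne_bot_iff _).mp hnoQ
    have hdW : d ∈ E ⊓ W := ⟨hdm.1, hR.pw hdm.2⟩
    have hdW' : d' ∈ E ⊓ W := ⟨hdm'.1, hR.qw hdm'.2⟩
    have hspan : span ℂ {d'} = E ⊓ W := by
      apply Submodule.eq_of_le_of_finrank_eq
      · rw [span_singleton_le_iff_mem]; exact hdW'
      · rw [finrank_span_singleton hd0', h1]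
    rw [← hspan] at hdW
    obtain ⟨c, hc⟩ := mem_span_singleton.mp hdW
    have hdQ : d ∈ Q := by
      rw [← hc]; exact Q.smul_mem _ hdm'.2
    apply hd0
    apply tang_top hS
    have htop : E ⊔ W = ⊤ := by
      apply Submodule.eq_top_of_finrank_eq
      omega
    rw [eq_top_iff, ← htop]
    exact sup_le (le_tang hE.2 hdm.1) (sup_le (le_tang hP.2 hdm.2) (le_tang hQ.2 hdQ))
  have hD2 : finrank ℂ ↥(E ⊓ W) = 2 := by omega
  have key : ∀ X, X ≤ W → (finrank ℂ ↥(E ⊓ X) = 2 ↔ E ⊓ W ≤ X) := by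
    intro X hX
    constructor
    · intro h
      have h1 : E ⊓ X = E ⊓ W :=
        Submodule.eq_of_le_of_finrank_eq (inf_le_inf_left E hX) (by rw [h, hD2])
      rw [← h1]
      exact inf_le_right
    · intro h
      have h1 : E ⊓ X = E ⊓ W :=
        le_antisymm (inf_le_inf_left E hX) (le_inf inf_le_left h)
      rw [h1, hD2]
  have two : ∀ X Y, Pl S X → Pl S Y → X ≤ W → Y ≤ W → finrank ℂ ↥(X ⊓ Y) = 2 →
      ¬ (finrank ℂ ↥(E ⊓ X) = 2 ∧ finrank ℂ ↥(E ⊓ Y) = 2) := by
    rintro X Y hX hY hXW hYW hXY ⟨h1, h2⟩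
    rw [key X hXW] at h1
    rw [key Y hYW] at h2
    have h3 := sup_eq_of_meet hX.1 hY.1 hR.w hXW hYW hXY
    refine no_line hV hS hD2 (N := E ⊔ W) (by omega) ?_
    intro v hv
    refine sup_le (le_tang hE.2 hv.1) ?_
    rw [← h3]
    exact sup_le (le_tang hX.2 (h1 hv)) (le_tang hY.2 (h2 hv))
  refine ⟨?_, two P Q hP hQ hR.pw hR.qw hPQ, two P R hP hR.r hR.pw hR.rw hR.pr,
    two Q R hQ hR.r hR.qw hR.rw hR.qr⟩
  rw [key P hR.pw, key Q hR.qw, key R hR.rw]
  exact hDle

end Vale.Agent.P287.R2.H622
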