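import Vale.Agent.P287.R2.H622.Frame

/-!
P287 (helper622): the cubic form of a plane does not depend on the frame, modulo the Jacobian ideal.
-/

namespace Vale.Agent.P287.R2.H622

open Module Submodule
open Vale.Agent.P287.R2.H248

variable {V : Type*} [AddCommGroup V] [Module ℂ V] {S : Tri V}

lemma JS_lin3 (Q : Submodule ℂ V) (L : Fin 3 → (V →ₗ[ℂ] ℂ)) (b : Fin 3 → V) :
    (fun x => L 0 x * S.T x x (b 0) + L 1 x * S.T x x (b 1) + L 2 x * S.T x x (b 2)) ∈ JS S Q :=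
  (JS S Q).add_mem ((JS S Q).add_mem (JS_mul Q (L 0) (b 0)) (JS_mul Q (L 1) (b 1)))
    (JS_mul Q (L 2) (b 2))

lemma repr_inr [FiniteDimensional ℂ V] {P : Submodule ℂ V} (hP : finrank ℂ P = 3)
    {e : Basis (Fin 3 ⊕ Fin 3) ℂ V} (he : ∀ i, e (Sum.inl i) ∈ P) {p : V} (hp : p ∈ P)
    (j : Fin 3) : e.repr p (Sum.inr j) = 0 := by
  have hli : LinearIndependent ℂ (fun i : Fin 3 => e (Sum.inl i)) :=
    e.linearIndependent.comp _ Sum.inl_injective
  have hspan : span ℂ (Set.range fun i : Fin 3 => e (Sum.inl i)) = P := by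
    apply Submodule.eq_of_le_of_finrank_eq
    · rw [span_le]
      rintro _ ⟨i, rfl⟩
      exact he i
    · rw [finrank_span_eq_card hli, hP, Fintype.card_fin]
  rw [← hspan] at hp
  obtain ⟨c, rfl⟩ := (Submodule.mem_span_range_iff_exists_fun ℂ).mp hp
  simp [map_sum]

lemma eq_prj_add (e : Basis (Fin 3 ⊕ Fin 3) ℂ V) (x : V) :
    x = prj e x + ∑ j, e.repr x (Sum.inr j) • e (Sum.inr j) := by
  conv_lhs => rw [← e.sum_repr x, Fintype.sum_sum_type]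
  rw [prj_apply]

lemma prj_of_mem [FiniteDimensional ℂ V] {P : Submodule ℂ V} (hP : finrank ℂ P = 3)
    {e : Basis (Fin 3 ⊕ Fin 3) ℂ V} (he : ∀ i, e (Sum.inl i) ∈ P) {p : V} (hp : p ∈ P) :
    prj e p = p := by
  conv_rhs => rw [eq_prj_add e p]
  simp [repr_inr hP he hp]

lemma prj_mem {P : Submodule ℂ V}
    {e : Basis (Fin 3 ⊕ Fin 3) ℂ V} (he : ∀ i, e (Sum.inl i) ∈ P) (x : V) :
    prj e x ∈ P := by
  rw [prj_apply]
  exact P.sum_mem fun i _ => P.smul_mem _ (he i)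

theorem frame_indep [FiniteDimensional ℂ V] {P : Submodule ℂ V} (hP : Pl S P)
    (e e' : Basis (Fin 3 ⊕ Fin 3) ℂ V) (he : ∀ i, e (Sum.inl i) ∈ P)
    (he' : ∀ i, e' (Sum.inl i) ∈ P) (hdet : e.det e' = 1) :
    (fun x => dl S e' x - dl S e x) ∈ JS S ⊤ := by
  -- notation
  set b : Fin 3 → V := fun i => e' (Sum.inl i) with hbdef
  set p : Fin 3 → V := fun j => prj e (e' (Sum.inr j)) with hpdef
  set k : Fin 3 → V := fun j => e' (Sum.inr j) - p j with hkdef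
  have hp : ∀ j, p j ∈ P := fun j => prj_mem he _
  -- the two blocks
  set g : Matrix (Fin 3) (Fin 3) ℂ := Matrix.of fun i l => e.repr (b i) (Sum.inl l) with hg
  set h : Matrix (Fin 3) (Fin 3) ℂ := Matrix.of fun j l => e.repr (e' (Sum.inr j)) (Sum.inr l)
    with hh
  have hb : ∀ i, b i = ∑ l, g i l • e (Sum.inl l) := by
    intro i
    have h1 := prj_of_mem hP.1 he (he' i)
    rw [prj_apply] at h1
    exact h1.symm
  have hk : ∀ j, k j = ∑ l, h j l • e (Sum.inr l) := by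
    intro j
    have h1 := eq_prj_add e (e' (Sum.inr j))
    rw [hkdef]
    simp only [hpdef]
    rw [sub_eq_iff_eq_add']
    exact h1
  have hgh : g.det * h.det = 1 := by
    have h1 : e.toMatrix e' = Matrix.fromBlocks g.transpose
        (Matrix.of fun l j => e.repr (e' (Sum.inr j)) (Sum.inl l)) 0 h.transpose := by
      ext i j
      rcases i with i | i <;> rcases j with j | j
      · rfl
      · rfl
      · exact repr_inr hP.1 he (he' j) i
      · rfl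
    rw [Basis.det_apply, h1, Matrix.det_fromBlocks_zero₂₁, Matrix.det_transpose,
      Matrix.det_transpose] at hdet
    exact hdet
  have hdl : ∀ x, dl S e x = dt S (x + prj e x) b k := by
    intro x
    rw [dt_change (x + prj e x) g h hb hk, hgh, one_mul]
    rfl
  -- linear maps
  let Ml : Fin 3 → Fin 3 → (V →ₗ[ℂ] ℂ) := fun i j =>
    ((S.T.flip (b i)).flip (k j)).comp (LinearMap.id + prj e)
  have hMl : ∀ i j x, Ml i j x = S.T (x + prj e x) (b i) (k j) := fun i j x => rfl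
  let w : Fin 3 → (V →ₗ[ℂ] ℂ) := fun j => e'.coord (Sum.inr j)
  have hw : ∀ j x, w j x = e'.repr x (Sum.inr j) := fun j x => rfl
  let ν : Fin 3 → Fin 3 → Fin 3 → ℂ := fun l j i => S.T (k l) (b i) (p j) - S.T (p l) (b i) (k j)
  have hν : ∀ l j i, ν l j i = S.T (k l) (b i) (p j) - S.T (p l) (b i) (k j) :=
    fun l j i => rfl
  have hanti : ∀ l j i, ν l j i = - ν j l i := by
    intro l j i
    rw [hν, hν, S.s13 (k l) (b i) (p j), S.s13 (p l) (b i) (k j)]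
    ring
  have hx : ∀ x, x = prj e' x + ∑ j, w j x • (k j + p j) := by
    intro x
    have h1 := eq_prj_add e' x
    have h2 : ∀ j, k j + p j = e' (Sum.inr j) := by
      intro j
      rw [hkdef]; exact sub_add_cancel _ _
    simp only [h2]
    exact h1
  have hprj : ∀ x, prj e x = prj e' x + ∑ j, w j x • p j := by
    intro x
    conv_lhs => rw [eq_prj_add e' x]
    rw [map_add, prj_of_mem hP.1 he (prj_mem he' x), map_sum]
    simp only [map_smul]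
    rfl
  have hxs : ∀ x, x - prj e x = ∑ j, w j x • k j := by
    intro x
    conv_lhs => rw [hprj x]
    nth_rewrite 1 [hx x]
    simp only [smul_add, Finset.sum_add_distrib]
    abel
  -- the entries
  have hent : ∀ i j x, S.T (x + prj e' x) (b i) (e' (Sum.inr j)) =
      Ml i j x + ∑ l, w l x * ν l j i := by
    intro i j x
    have hbP : b i ∈ P := he' i
    have h1 : e' (Sum.inr j) = k j + p j := by
      rw [hkdef]; exact (sub_add_cancel _ _).symm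
    have h2 : x + prj e' x = (x + prj e x) - ∑ l, w l x • p l := by
      rw [hprj x]; abel
    have h3 : S.T (x + prj e' x) (b i) (p j) = ∑ l, w l x * S.T (k l) (b i) (p j) := by
      have h4 : x + prj e' x = ((2 : ℂ) • prj e' x + ∑ l, w l x • p l) + ∑ l, w l x • k l := by
        nth_rewrite 1 [hx x]
        simp only [smul_add, Finset.sum_add_distrib, two_smul]
        abel
      have h5 : (2 : ℂ) • prj e' x + ∑ l, w l x • p l ∈ P :=
        P.add_mem (P.smul_mem _ (prj_mem he' x)) (P.sum_mem fun l _ => P.smul_mem _ (hp l))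
      rw [h4, map_add, LinearMap.add_apply, LinearMap.add_apply, hP.2.three h5 hbP (hp j),
        zero_add]
      simp only [map_sum, map_smul, LinearMap.sum_apply, LinearMap.smul_apply, smul_eq_mul]
    rw [h1, map_add, h3, h2, LinearMap.map_sub S.T, LinearMap.sub_apply, LinearMap.sub_apply, hMl]
    simp only [map_sum, map_smul, LinearMap.sum_apply, LinearMap.smul_apply, smul_eq_mul, hν,
      mul_sub, Finset.sum_sub_distrib]
    ring
  have hm : ∀ i x, S.T x x (b i) = w 0 x * Ml i 0 x + w 1 x * Ml i 1 x + w 2 x * Ml i 2 x := by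
    intro i x
    have h1 : S.T (x + prj e x) (b i) (x - prj e x) =
        w 0 x * Ml i 0 x + w 1 x * Ml i 1 x + w 2 x * Ml i 2 x := by
      rw [hxs x, map_sum, Fin.sum_univ_three]
      simp only [map_smul, smul_eq_mul, hMl]
    rw [← h1, map_add, LinearMap.add_apply, LinearMap.add_apply, map_sub, map_sub,
      hP.2.three (prj_mem he x) (he' i) (prj_mem he x), S.s13 x (b i) (prj e x),
      S.s23 x (b i) x]
    ring
  -- the linear factors
  let L : Fin 3 → (V →ₗ[ℂ] ℂ) := ![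
    - (ν 1 2 2 • Ml 1 0 - ν 1 2 1 • Ml 2 0) - (ν 2 0 2 • Ml 1 1 - ν 2 0 1 • Ml 2 1)
      - (ν 0 1 2 • Ml 1 2 - ν 0 1 1 • Ml 2 2) + (ν 2 0 1 * ν 0 1 2 - ν 2 0 2 * ν 0 1 1) • w 0
      + (ν 0 1 1 * ν 1 2 2 - ν 0 1 2 * ν 1 2 1) • w 1
      + (ν 1 2 1 * ν 2 0 2 - ν 1 2 2 * ν 2 0 1) • w 2,
    - (ν 1 2 0 • Ml 2 0 - ν 1 2 2 • Ml 0 0) - (ν 2 0 0 • Ml 2 1 - ν 2 0 2 • Ml 0 1)
      - (ν 0 1 0 • Ml 2 2 - ν 0 1 2 • Ml 0 2) + (ν 2 0 2 * ν 0 1 0 - ν 2 0 0 * ν 0 1 2) • w 0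
      + (ν 0 1 2 * ν 1 2 0 - ν 0 1 0 * ν 1 2 2) • w 1
      + (ν 1 2 2 * ν 2 0 0 - ν 1 2 0 * ν 2 0 2) • w 2,
    - (ν 1 2 1 • Ml 0 0 - ν 1 2 0 • Ml 1 0) - (ν 2 0 1 • Ml 0 1 - ν 2 0 0 • Ml 1 1)
      - (ν 0 1 1 • Ml 0 2 - ν 0 1 0 • Ml 1 2) + (ν 2 0 0 * ν 0 1 1 - ν 2 0 1 * ν 0 1 0) • w 0
      + (ν 0 1 0 * ν 1 2 1 - ν 0 1 1 * ν 1 2 0) • w 1
      + (ν 1 2 0 * ν 2 0 1 - ν 1 2 1 * ν 2 0 0) • w 2]
  refine JS_congr (JS_lin3 ⊤ L b) fun x _ => ?_
  have hdl' : dl S e' x = (Matrix.of fun i j => Ml i j x + ![- w 1 x * ν 0 1 i + w 2 x * ν 2 0 i,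
      w 0 x * ν 0 1 i - w 2 x * ν 1 2 i, - w 0 x * ν 2 0 i + w 1 x * ν 1 2 i] j :
      Matrix (Fin 3) (Fin 3) ℂ).det := by
    unfold dl dt
    congr 1
    ext i j
    rw [Matrix.of_apply, Matrix.of_apply]
    rw [hent i j x, Fin.sum_univ_three]
    have h0 : ∀ l, ν l l i = 0 := by
      intro l
      have := hanti l l i
      linear_combination (1 / 2 : ℂ) * this
    fin_cases j
    · simp only [Fin.zero_eta, Matrix.cons_val_zero, h0, hanti 1 0 i]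
      ring
    · simp only [Fin.mk_one, Matrix.cons_val_one, Matrix.cons_val_zero, h0, hanti 2 1 i]
      ring
    · simp only [Fin.reduceFinMk, Matrix.cons_val, h0, hanti 0 2 i]
      ring
  have hid := det_identity (fun i j => Ml i j x) (fun i r => ![ν 1 2 i, ν 2 0 i, ν 0 1 i] r)
    (fun j => w j x) (fun i => S.T x x (b i)) (fun i => hm i x)
  simp only [Matrix.cons_val_zero, Matrix.cons_val_one, Matrix.cons_val] at hid
  rw [hdl', hdl x]
  unfold dt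
  rw [hid]
  have hL0 : L 0 x = - (ν 1 2 2 * Ml 1 0 x - ν 1 2 1 * Ml 2 0 x)
      - (ν 2 0 2 * Ml 1 1 x - ν 2 0 1 * Ml 2 1 x)
      - (ν 0 1 2 * Ml 1 2 x - ν 0 1 1 * Ml 2 2 x)
      + (ν 2 0 1 * ν 0 1 2 - ν 2 0 2 * ν 0 1 1) * w 0 x
      + (ν 0 1 1 * ν 1 2 2 - ν 0 1 2 * ν 1 2 1) * w 1 x
      + (ν 1 2 1 * ν 2 0 2 - ν 1 2 2 * ν 2 0 1) * w 2 x := rfl
  have hL1 : L 1 x = - (ν 1 2 0 * Ml 2 0 x - ν 1 2 2 * Ml 0 0 x)
      - (ν 2 0 0 * Ml 2 1 x - ν 2 0 2 * Ml 0 1 x)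
      - (ν 0 1 0 * Ml 2 2 x - ν 0 1 2 * Ml 0 2 x)
      + (ν 2 0 2 * ν 0 1 0 - ν 2 0 0 * ν 0 1 2) * w 0 x
      + (ν 0 1 2 * ν 1 2 0 - ν 0 1 0 * ν 1 2 2) * w 1 x
      + (ν 1 2 2 * ν 2 0 0 - ν 1 2 0 * ν 2 0 2) * w 2 x := rfl
  have hL2 : L 2 x = - (ν 1 2 1 * Ml 0 0 x - ν 1 2 0 * Ml 1 0 x)
      - (ν 2 0 1 * Ml 0 1 x - ν 2 0 0 * Ml 1 1 x)
      - (ν 0 1 1 * Ml 0 2 x - ν 0 1 0 * Ml 1 2 x)
      + (ν 2 0 0 * ν 0 1 1 - ν 2 0 1 * ν 0 1 0) * w 0 x
      + (ν 0 1 0 * ν 1 2 1 - ν 0 1 1 * ν 1 2 0) * w 1 x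
      + (ν 1 2 0 * ν 2 0 1 - ν 1 2 1 * ν 2 0 0) * w 2 x := rfl
  have hMat : (Matrix.of fun i j => Ml i j x : Matrix (Fin 3) (Fin 3) ℂ).det =
    (Matrix.of fun i j => S.T (x + prj e x) (b i) (k j)).det := rfl
  rw [hMat, hL0, hL1, hL2]
  ring

end Vale.Agent.P287.R2.H622
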