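import Vale.Agent.P287.R2.H622.Pair
import Vale.Agent.P287.R2.H11.Socle

/-!
P287 (helper622): the cubic form of a plane that meets another plane in one point is not in the
Jacobian ideal restricted to the plane.
-/

namespace Vale.Agent.P287.R2.H622

open Module Submodule
open Vale.Agent.P287.R2.H248

variable {V : Type*} [AddCommGroup V] [Module ℂ V] {S : Tri V}

lemma dl_first {Q : Submodule ℂ V} (hQ : S.Iso Q) (e : Basis (Fin 3 ⊕ Fin 3) ℂ V)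
    (hoQ : e (Sum.inl 0) ∈ Q) (huQ : e (Sum.inr 0) ∈ Q) (hvQ : e (Sum.inr 1) ∈ Q)
    {x x' : V} {y0 y1 y2 : ℂ}
    (hx : x = y0 • e (Sum.inl 0) + y1 • e (Sum.inr 0) + y2 • e (Sum.inr 1))
    (hx' : x' = (2 * y0) • e (Sum.inl 0) + y1 • e (Sum.inr 0) + y2 • e (Sum.inr 1)) :
    dl S e x = (2 * y0 * S.T (e (Sum.inl 0)) (e (Sum.inl 0)) (e (Sum.inr 2)) +
      y1 * S.T (e (Sum.inl 0)) (e (Sum.inr 0)) (e (Sum.inr 2)) +
      y2 * S.T (e (Sum.inl 0)) (e (Sum.inr 1)) (e (Sum.inr 2))) *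
      (S.T x' (e (Sum.inl 1)) (e (Sum.inr 0)) * S.T x' (e (Sum.inl 2)) (e (Sum.inr 1)) -
        S.T x' (e (Sum.inl 1)) (e (Sum.inr 1)) * S.T x' (e (Sum.inl 2)) (e (Sum.inr 0))) := by
  have hp : prj e x = y0 • e (Sum.inl 0) := by
    rw [hx, map_add, map_add, map_smul, map_smul, map_smul, prj_inl, prj_inr, prj_inr, smul_zero,
      smul_zero, add_zero, add_zero]
  have hy : x + prj e x = x' := by
    rw [hp, hx, hx', mul_smul, two_smul]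
    abel
  have hx'Q : x' ∈ Q := by
    rw [hx']
    exact Q.add_mem (Q.add_mem (Q.smul_mem _ hoQ) (Q.smul_mem _ huQ)) (Q.smul_mem _ hvQ)
  have e1 : S.T x' (e (Sum.inl 0)) (e (Sum.inr 0)) = 0 := hQ.three hx'Q hoQ huQ
  have e2 : S.T x' (e (Sum.inl 0)) (e (Sum.inr 1)) = 0 := hQ.three hx'Q hoQ hvQ
  have e3 : S.T x' (e (Sum.inl 0)) (e (Sum.inr 2)) =
      2 * y0 * S.T (e (Sum.inl 0)) (e (Sum.inl 0)) (e (Sum.inr 2)) +
      y1 * S.T (e (Sum.inl 0)) (e (Sum.inr 0)) (e (Sum.inr 2)) +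
      y2 * S.T (e (Sum.inl 0)) (e (Sum.inr 1)) (e (Sum.inr 2)) := by
    rw [hx', tri_exp, S.s12 (e (Sum.inr 0)) (e (Sum.inl 0)), S.s12 (e (Sum.inr 1)) (e (Sum.inl 0))]
  unfold dl dt
  rw [Matrix.det_fin_three]
  simp only [Matrix.of_apply, hy, e1, e2, e3]
  ring

/-- Lemma: the form of `Q` is not in the Jacobian ideal on `Q`. -/
theorem not_mem_JS [FiniteDimensional ℂ V] (hS : S.Smooth)
    {P Q : Submodule ℂ V} (hP : Pl S P) (hQ : Pl S Q)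
    (e e' : Basis (Fin 3 ⊕ Fin 3) ℂ V) (he : ∀ i, e (Sum.inl i) ∈ P)
    (he' : ∀ i, e' (Sum.inl i) ∈ Q) (h0 : e' (Sum.inl 0) = e (Sum.inl 0))
    (h1 : e' (Sum.inl 1) = e (Sum.inr 0)) (h2 : e' (Sum.inl 2) = e (Sum.inr 1))
    (h3 : e' (Sum.inr 0) = e (Sum.inl 1)) (h4 : e' (Sum.inr 1) = e (Sum.inl 2))
    (h5 : e' (Sum.inr 2) = e (Sum.inr 2)) : dl S e' ∉ JS S Q := by
  intro hmem
  -- the form of the first plane is in the ideal
  have hpair := pair_identity hP hQ e e' he he' h0 h1 h2 h3 h4 h5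
  have hfirst : (fun x => 4 * dl S e x) ∈ JS S Q := by
    have h := (JS S Q).sub_mem hmem hpair
    refine JS_congr h fun x _ => ?_
    simp only [Pi.sub_apply]
    ring
  obtain ⟨A, hA⟩ := hfirst
  have hoQ : e (Sum.inl 0) ∈ Q := h0 ▸ he' 0
  have huQ : e (Sum.inr 0) ∈ Q := h1 ▸ he' 1
  have hvQ : e (Sum.inr 1) ∈ Q := h2 ▸ he' 2
  obtain ⟨o, ho⟩ : ∃ o, e (Sum.inl 0) = o := ⟨_, rfl⟩
  obtain ⟨p1, hp1⟩ : ∃ o, e (Sum.inl 1) = o := ⟨_, rfl⟩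
  obtain ⟨p2, hp2⟩ : ∃ o, e (Sum.inl 2) = o := ⟨_, rfl⟩
  obtain ⟨u, hu⟩ : ∃ o, e (Sum.inr 0) = o := ⟨_, rfl⟩
  obtain ⟨v, hv⟩ : ∃ o, e (Sum.inr 1) = o := ⟨_, rfl⟩
  obtain ⟨k, hk⟩ : ∃ o, e (Sum.inr 2) = o := ⟨_, rfl⟩
  have hoP : o ∈ P := ho ▸ he 0
  have hp1P : p1 ∈ P := hp1 ▸ he 1
  have hp2P : p2 ∈ P := hp2 ▸ he 2
  -- vanishing of T x x on the basis
  have hbas : ∀ x ∈ Q, S.T x x p1 = 0 → S.T x x p2 = 0 → S.T x x k = 0 → x = 0 := by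
    intro x hx e1 e2 e3
    apply hS
    have h6 : S.T x x = 0 := by
      apply e.ext
      rintro (i | i) <;> fin_cases i
      · exact hQ.2.two hx hoQ
      · change S.T x x (e (Sum.inl 1)) = 0
        rw [hp1]; exact e1
      · change S.T x x (e (Sum.inl 2)) = 0
        rw [hp2]; exact e2
      · exact hQ.2.two hx huQ
      · exact hQ.2.two hx hvQ
      · change S.T x x (e (Sum.inr 2)) = 0
        rw [hk]; exact e3
    intro w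
    rw [h6]; rfl
  rw [ho] at hoQ
  rw [hu] at huQ
  rw [hv] at hvQ
  have ho0 : o ≠ 0 := by rw [← ho]; exact e.ne_zero _
  have hg : S.T o o k ≠ 0 := by
    intro h
    exact ho0 (hbas o hoQ (hP.2.three hoP hoP hp1P) (hP.2.three hoP hoP hp2P) h)
  -- the parametrization of Q
  let ψ : (Fin 3 → ℂ) →ₗ[ℂ] V := (LinearMap.proj 0).smulRight o + (LinearMap.proj 1).smulRight u +
    (LinearMap.proj 2).smulRight v
  have hψ : ∀ y, ψ y = y 0 • o + y 1 • u + y 2 • v := fun y => rfl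
  let ψ' : (Fin 3 → ℂ) →ₗ[ℂ] V := ψ + (LinearMap.proj 0).smulRight o
  have hψ' : ∀ y, ψ' y = (2 * y 0) • o + y 1 • u + y 2 • v := by
    intro y
    change (y 0 • o + y 1 • u + y 2 • v) + y 0 • o = _
    rw [mul_smul, two_smul]
    abel
  have hψQ : ∀ y, ψ y ∈ Q := by
    intro y
    rw [hψ]
    exact Q.add_mem (Q.add_mem (Q.smul_mem _ hoQ) (Q.smul_mem _ huQ)) (Q.smul_mem _ hvQ)
  have hψ0 : ∀ y, ψ y = 0 → y = 0 := by
    intro y hy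
    have h6 : e'.repr (ψ y) = 0 := by rw [hy, map_zero]
    have h7 : ψ y = y 0 • e' (Sum.inl 0) + y 1 • e' (Sum.inl 1) + y 2 • e' (Sum.inl 2) := by
      rw [hψ, h0, h1, h2, ho, hu, hv]
    rw [h7] at h6
    funext i
    have h8 := DFunLike.congr_fun h6 (Sum.inl i)
    fin_cases i <;> simpa [Finsupp.single_apply] using h8
  let M : Fin 2 → Fin 2 → ((Fin 3 → ℂ) →ₗ[ℂ] ℂ) := fun i j =>
    ((S.T.flip (![p1, p2] i)).flip (![u, v] j)).comp ψ'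
  have hM : ∀ i j y, M i j y = S.T (ψ' y) (![p1, p2] i) (![u, v] j) := fun i j y => rfl
  have hT : ∀ y k, S.T (ψ' y) k u * y 1 + S.T (ψ' y) k v * y 2 + y 0 ^ 2 * S.T o o k =
      S.T (ψ y) (ψ y) k := by
    intro y k
    rw [hψ, quad_exp, hψ', tri_exp, tri_exp, S.s23 o k u, S.s23 u k u, S.s23 v k u, S.s12 v u k,
      S.s23 o k v, S.s23 u k v, S.s23 v k v]
    ring
  have hq1 : ∀ y, y 1 * M 0 0 y + y 2 * M 0 1 y = S.T (ψ y) (ψ y) p1 := by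
    intro y
    rw [← hT y p1, hP.2.three hoP hoP hp1P, hM, hM]
    simp only [Matrix.cons_val_zero, Matrix.cons_val_one]
    ring
  have hq2 : ∀ y, y 1 * M 1 0 y + y 2 * M 1 1 y = S.T (ψ y) (ψ y) p2 := by
    intro y
    rw [← hT y p2, hP.2.three hoP hoP hp2P, hM, hM]
    simp only [Matrix.cons_val_zero, Matrix.cons_val_one]
    ring
  let B : (Fin 3 → ℂ) →ₗ[ℂ] (Fin 3 → ℂ) →ₗ[ℂ] ℂ := (S.T k).compl₁₂ ψ ψ
  have hB : ∀ y, B y y = S.T (ψ y) (ψ y) k := by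
    intro y
    change S.T k (ψ y) (ψ y) = _
    rw [S.cyc]
  -- the value on Q
  have hexp : ∀ y, S.T (ψ y) (ψ y) (A (ψ y)) =
      e.repr (A (ψ y)) (Sum.inl 1) * S.T (ψ y) (ψ y) p1 +
      e.repr (A (ψ y)) (Sum.inl 2) * S.T (ψ y) (ψ y) p2 +
      e.repr (A (ψ y)) (Sum.inr 2) * S.T (ψ y) (ψ y) k := by
    intro y
    have h6 := congrArg (S.T (ψ y) (ψ y)) (e.sum_repr (A (ψ y)))
    rw [Fintype.sum_sum_type, Fin.sum_univ_three, Fin.sum_univ_three] at h6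
    simp only [map_add, map_smul, smul_eq_mul, ho, hp1, hp2, hu, hv, hk,
      hQ.2.two (hψQ y) hoQ, hQ.2.two (hψQ y) huQ, hQ.2.two (hψQ y) hvQ, mul_zero, zero_add,
      add_zero] at h6
    rw [← h6]
  set g := S.T o o k with hgdef
  set a3 := S.T o u k with ha3
  set b3 := S.T o v k with hb3
  have hdl : ∀ y, dl S e (ψ y) = (2 * y 0 * g + y 1 * a3 + y 2 * b3) *
      (M 0 0 y * M 1 1 y - M 0 1 y * M 1 0 y) := by
    intro y
    have h6 := dl_first (S := S) (Q := Q) hQ.2 e (ho ▸ hoQ) (hu ▸ huQ) (hv ▸ hvQ) (x := ψ y)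
      (x' := ψ' y) (y0 := y 0) (y1 := y 1) (y2 := y 2) (by rw [hψ, ho, hu, hv])
      (by rw [hψ', ho, hu, hv])
    rw [ho, hu, hv, hk, hp1, hp2] at h6
    exact h6
  let l : Fin 3 → ((Fin 3 → ℂ) →ₗ[ℂ] ℂ) := ![
    (8 * g)⁻¹ • ((e.coord (Sum.inl 1)).comp (A.comp ψ) - (4 * a3) • M 1 1 + (4 * b3) • M 1 0),
    (8 * g)⁻¹ • ((e.coord (Sum.inl 2)).comp (A.comp ψ) + (4 * a3) • M 0 1 - (4 * b3) • M 0 0),
    (8 * g)⁻¹ • ((e.coord (Sum.inr 2)).comp (A.comp ψ))]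
  refine H11.socle M B ?_ l ?_
  · intro y e1 e2 e3
    rw [hq1] at e1
    rw [hq2] at e2
    rw [hB] at e3
    exact hψ0 y (hbas (ψ y) (hψQ y) e1 e2 e3)
  · intro y
    have hl0 : l 0 y = (8 * g)⁻¹ * (e.repr (A (ψ y)) (Sum.inl 1) - (4 * a3) * M 1 1 y +
      (4 * b3) * M 1 0 y) := rfl
    have hl1 : l 1 y = (8 * g)⁻¹ * (e.repr (A (ψ y)) (Sum.inl 2) + (4 * a3) * M 0 1 y -
      (4 * b3) * M 0 0 y) := rfl
    have hl2 : l 2 y = (8 * g)⁻¹ * e.repr (A (ψ y)) (Sum.inr 2) := rfl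
    have h7 : 4 * dl S e (ψ y) = S.T (ψ y) (ψ y) (A (ψ y)) := hA (ψ y) (hψQ y)
    rw [hexp, hdl, ← hq1, ← hq2, ← hB] at h7
    rw [hl0, hl1, hl2]
    have h8 : (8 : ℂ) * g ≠ 0 := mul_ne_zero (by norm_num) hg
    field_simp
    linear_combination h7

end Vale.Agent.P287.R2.H622
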