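import Vale.Agent.P287.R2.H622.Indep

/-!
P287 (helper622): the cubic forms of two planes that meet in one point, on the second plane.
-/

namespace Vale.Agent.P287.R2.H622

open Module Submodule
open Vale.Agent.P287.R2.H248

variable {V : Type*} [AddCommGroup V] [Module ℂ V] {S : Tri V}

lemma prj_inl (e : Basis (Fin 3 ⊕ Fin 3) ℂ V) (i : Fin 3) : prj e (e (Sum.inl i)) = e (Sum.inl i) := by
  rw [prj_apply]
  simp [Finsupp.single_apply]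

lemma prj_inr (e : Basis (Fin 3 ⊕ Fin 3) ℂ V) (i : Fin 3) : prj e (e (Sum.inr i)) = 0 := by
  rw [prj_apply]
  simp

lemma tri_exp (S : Tri V) (x0 x4 x5 : ℂ) (o u v b k : V) :
    S.T (x0 • o + x4 • u + x5 • v) b k = x0 * S.T o b k + x4 * S.T u b k + x5 * S.T v b k := by
  simp only [map_add, map_smul, LinearMap.add_apply, LinearMap.smul_apply, smul_eq_mul]

/-- the quadric of `k` on the span of `o`, `u`, `v` -/
lemma quad_exp (S : Tri V) (x0 x4 x5 : ℂ) (o u v k : V) :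
    S.T (x0 • o + x4 • u + x5 • v) (x0 • o + x4 • u + x5 • v) k =
      x0 ^ 2 * S.T o o k + x4 ^ 2 * S.T u u k + x5 ^ 2 * S.T v v k + 2 * x0 * x4 * S.T o u k +
        2 * x0 * x5 * S.T o v k + 2 * x4 * x5 * S.T u v k := by
  simp only [map_add, map_smul, LinearMap.add_apply, LinearMap.smul_apply, smul_eq_mul]
  rw [S.s12 u o k, S.s12 v o k, S.s12 v u k]
  ring

/-- the polynomial identity: the determinant of the second plane -/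
lemma det_two (x0 x4 x5 a1 b1 c1 d1 f1 a2 b2 c2 d2 f2 a3 b3 c3 d3 f3 g : ℂ) :
    (Matrix.of ![![2 * (x4 * a1 + x5 * b1), 2 * (x4 * a2 + x5 * b2),
        2 * (x0 * g + x4 * a3 + x5 * b3)],
      ![2 * (x0 * a1 + x4 * c1 + x5 * d1), 2 * (x0 * a2 + x4 * c2 + x5 * d2),
        2 * (x0 * a3 + x4 * c3 + x5 * d3)],
      ![2 * (x0 * b1 + x4 * d1 + x5 * f1), 2 * (x0 * b2 + x4 * d2 + x5 * f2),
        2 * (x0 * b3 + x4 * d3 + x5 * f3)]] : Matrix (Fin 3) (Fin 3) ℂ).det -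
    4 * ((2 * x0 * g + x4 * a3 + x5 * b3) *
      ((2 * x0 * a1 + x4 * c1 + x5 * d1) * (2 * x0 * b2 + x4 * d2 + x5 * f2) -
        (2 * x0 * b1 + x4 * d1 + x5 * f1) * (2 * x0 * a2 + x4 * c2 + x5 * d2))) =
    ((-24 * a2 * b3 + 24 * b2 * a3 - 8 * a3 * b2 + 8 * b3 * a2) * x0
      + (-8 * a2 * d3 + 8 * b2 * c3 - 8 * c2 * b3 + 8 * d2 * a3 - 4 * a3 * d2 + 4 * b3 * c2) * x4
      + (-8 * a2 * f3 + 8 * b2 * d3 - 8 * d2 * b3 + 8 * f2 * a3 - 4 * a3 * f2 + 4 * b3 * d2) * x5) *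
      (x4 ^ 2 * c1 + x5 ^ 2 * f1 + 2 * x0 * x4 * a1 + 2 * x0 * x5 * b1 + 2 * x4 * x5 * d1) +
    ((24 * a1 * b3 - 24 * b1 * a3 + 8 * a3 * b1 - 8 * b3 * a1) * x0
      + (8 * a1 * d3 - 8 * b1 * c3 + 8 * c1 * b3 - 8 * d1 * a3 + 4 * a3 * d1 - 4 * b3 * c1) * x4
      + (8 * a1 * f3 - 8 * b1 * d3 + 8 * d1 * b3 - 8 * f1 * a3 + 4 * a3 * f1 - 4 * b3 * d1) * x5) *
      (x4 ^ 2 * c2 + x5 ^ 2 * f2 + 2 * x0 * x4 * a2 + 2 * x0 * x5 * b2 + 2 * x4 * x5 * d2) +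
    ((-24 * a1 * b2 + 24 * b1 * a2) * x0
      + (-8 * a1 * d2 + 8 * b1 * c2 - 8 * c1 * b2 + 8 * d1 * a2) * x4
      + (-8 * a1 * f2 + 8 * b1 * d2 - 8 * d1 * b2 + 8 * f1 * a2) * x5) *
      (x0 ^ 2 * g + x4 ^ 2 * c3 + x5 ^ 2 * f3 + 2 * x0 * x4 * a3 + 2 * x0 * x5 * b3 +
        2 * x4 * x5 * d3) := by
  rw [Matrix.det_fin_three]
  simp only [Matrix.of_apply, Matrix.cons_val_zero, Matrix.cons_val_one, Matrix.cons_val]
  ring

theorem pair_identity [FiniteDimensional ℂ V] {P Q : Submodule ℂ V} (hP : Pl S P) (hQ : Pl S Q)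
    (e e' : Basis (Fin 3 ⊕ Fin 3) ℂ V) (he : ∀ i, e (Sum.inl i) ∈ P)
    (he' : ∀ i, e' (Sum.inl i) ∈ Q) (h0 : e' (Sum.inl 0) = e (Sum.inl 0))
    (h1 : e' (Sum.inl 1) = e (Sum.inr 0)) (h2 : e' (Sum.inl 2) = e (Sum.inr 1))
    (h3 : e' (Sum.inr 0) = e (Sum.inl 1)) (h4 : e' (Sum.inr 1) = e (Sum.inl 2))
    (h5 : e' (Sum.inr 2) = e (Sum.inr 2)) :
    (fun x => dl S e' x - 4 * dl S e x) ∈ JS S Q := by
  obtain ⟨o, ho⟩ : ∃ o, e (Sum.inl 0) = o := ⟨_, rfl⟩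
  obtain ⟨p1, hp1⟩ : ∃ o, e (Sum.inl 1) = o := ⟨_, rfl⟩
  obtain ⟨p2, hp2⟩ : ∃ o, e (Sum.inl 2) = o := ⟨_, rfl⟩
  obtain ⟨u, hu⟩ : ∃ o, e (Sum.inr 0) = o := ⟨_, rfl⟩
  obtain ⟨v, hv⟩ : ∃ o, e (Sum.inr 1) = o := ⟨_, rfl⟩
  obtain ⟨k, hk⟩ : ∃ o, e (Sum.inr 2) = o := ⟨_, rfl⟩
  have hoP : o ∈ P := ho ▸ he 0
  have hp1P : p1 ∈ P := hp1 ▸ he 1
  have hp2P : p2 ∈ P := hp2 ▸ he 2
  have hoQ : o ∈ Q := by rw [← ho, ← h0]; exact he' 0
  have huQ : u ∈ Q := by rw [← hu, ← h1]; exact he' 1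
  have hvQ : v ∈ Q := by rw [← hv, ← h2]; exact he' 2
  let X : Fin 3 → (V →ₗ[ℂ] ℂ) := fun i => e'.coord (Sum.inl i)
  have hx : ∀ x ∈ Q, x = X 0 x • o + X 1 x • u + X 2 x • v := by
    intro x hxQ
    have h := prj_of_mem hQ.1 he' hxQ
    rw [prj_apply, Fin.sum_univ_three, h0, h1, h2, ho, hu, hv] at h
    exact h.symm
  have hpx : ∀ x ∈ Q, prj e x = X 0 x • o := by
    intro x hxQ
    conv_lhs => rw [hx x hxQ]
    rw [map_add, map_add, map_smul, map_smul, map_smul, ← ho, ← hu, ← hv, prj_inl, prj_inr,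
      prj_inr, smul_zero, smul_zero, add_zero, add_zero]
  have hpx' : ∀ x ∈ Q, prj e' x = x := fun x hxQ => prj_of_mem hQ.1 he' hxQ
  -- the coefficients
  set a1 := S.T o u p1
  set b1 := S.T o v p1
  set c1 := S.T u u p1
  set d1 := S.T u v p1
  set f1 := S.T v v p1
  set a2 := S.T o u p2
  set b2 := S.T o v p2
  set c2 := S.T u u p2
  set d2 := S.T u v p2
  set f2 := S.T v v p2
  set a3 := S.T o u k
  set b3 := S.T o v k
  set c3 := S.T u u k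
  set d3 := S.T u v k
  set f3 := S.T v v k
  set g := S.T o o k
  have g1 : S.T o o p1 = 0 := hP.2.three hoP hoP hp1P
  have g2 : S.T o o p2 = 0 := hP.2.three hoP hoP hp2P
  let L : Fin 3 → (V →ₗ[ℂ] ℂ) := ![
    (-24 * a2 * b3 + 24 * b2 * a3 - 8 * a3 * b2 + 8 * b3 * a2) • X 0
      + (-8 * a2 * d3 + 8 * b2 * c3 - 8 * c2 * b3 + 8 * d2 * a3 - 4 * a3 * d2 + 4 * b3 * c2) • X 1
      + (-8 * a2 * f3 + 8 * b2 * d3 - 8 * d2 * b3 + 8 * f2 * a3 - 4 * a3 * f2 + 4 * b3 * d2) • X 2,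
    (24 * a1 * b3 - 24 * b1 * a3 + 8 * a3 * b1 - 8 * b3 * a1) • X 0
      + (8 * a1 * d3 - 8 * b1 * c3 + 8 * c1 * b3 - 8 * d1 * a3 + 4 * a3 * d1 - 4 * b3 * c1) • X 1
      + (8 * a1 * f3 - 8 * b1 * d3 + 8 * d1 * b3 - 8 * f1 * a3 + 4 * a3 * f1 - 4 * b3 * d1) • X 2,
    (-24 * a1 * b2 + 24 * b1 * a2) • X 0
      + (-8 * a1 * d2 + 8 * b1 * c2 - 8 * c1 * b2 + 8 * d1 * a2) • X 1
      + (-8 * a1 * f2 + 8 * b1 * d2 - 8 * d1 * b2 + 8 * f1 * a2) • X 2]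
  refine JS_congr (JS_lin3 Q L ![p1, p2, k]) fun x hxQ => ?_
  have hL0 : L 0 x = (-24 * a2 * b3 + 24 * b2 * a3 - 8 * a3 * b2 + 8 * b3 * a2) * X 0 x
      + (-8 * a2 * d3 + 8 * b2 * c3 - 8 * c2 * b3 + 8 * d2 * a3 - 4 * a3 * d2 + 4 * b3 * c2) * X 1 x
      + (-8 * a2 * f3 + 8 * b2 * d3 - 8 * d2 * b3 + 8 * f2 * a3 - 4 * a3 * f2 + 4 * b3 * d2) *
        X 2 x := rfl
  have hL1 : L 1 x = (24 * a1 * b3 - 24 * b1 * a3 + 8 * a3 * b1 - 8 * b3 * a1) * X 0 x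
      + (8 * a1 * d3 - 8 * b1 * c3 + 8 * c1 * b3 - 8 * d1 * a3 + 4 * a3 * d1 - 4 * b3 * c1) * X 1 x
      + (8 * a1 * f3 - 8 * b1 * d3 + 8 * d1 * b3 - 8 * f1 * a3 + 4 * a3 * f1 - 4 * b3 * d1) *
        X 2 x := rfl
  have hL2 : L 2 x = (-24 * a1 * b2 + 24 * b1 * a2) * X 0 x
      + (-8 * a1 * d2 + 8 * b1 * c2 - 8 * c1 * b2 + 8 * d1 * a2) * X 1 x
      + (-8 * a1 * f2 + 8 * b1 * d2 - 8 * d1 * b2 + 8 * f1 * a2) * X 2 x := rfl
  have q1 : S.T x x p1 = X 1 x ^ 2 * c1 + X 2 x ^ 2 * f1 + 2 * X 0 x * X 1 x * a1 +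
      2 * X 0 x * X 2 x * b1 + 2 * X 1 x * X 2 x * d1 := by
    conv_lhs => rw [hx x hxQ]
    rw [quad_exp, g1]
    ring
  have q2 : S.T x x p2 = X 1 x ^ 2 * c2 + X 2 x ^ 2 * f2 + 2 * X 0 x * X 1 x * a2 +
      2 * X 0 x * X 2 x * b2 + 2 * X 1 x * X 2 x * d2 := by
    conv_lhs => rw [hx x hxQ]
    rw [quad_exp, g2]
    ring
  have q3 : S.T x x k = X 0 x ^ 2 * g + X 1 x ^ 2 * c3 + X 2 x ^ 2 * f3 +
      2 * X 0 x * X 1 x * a3 + 2 * X 0 x * X 2 x * b3 + 2 * X 1 x * X 2 x * d3 := by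
    conv_lhs => rw [hx x hxQ]
    rw [quad_exp]
  have hD' : dl S e' x = (Matrix.of ![![2 * (X 1 x * a1 + X 2 x * b1), 2 * (X 1 x * a2 + X 2 x * b2),
        2 * (X 0 x * g + X 1 x * a3 + X 2 x * b3)],
      ![2 * (X 0 x * a1 + X 1 x * c1 + X 2 x * d1), 2 * (X 0 x * a2 + X 1 x * c2 + X 2 x * d2),
        2 * (X 0 x * a3 + X 1 x * c3 + X 2 x * d3)],
      ![2 * (X 0 x * b1 + X 1 x * d1 + X 2 x * f1), 2 * (X 0 x * b2 + X 1 x * d2 + X 2 x * f2),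
        2 * (X 0 x * b3 + X 1 x * d3 + X 2 x * f3)]] : Matrix (Fin 3) (Fin 3) ℂ).det := by
    have hE : ∀ b k, S.T (x + x) b k =
        2 * (X 0 x * S.T o b k + X 1 x * S.T u b k + X 2 x * S.T v b k) := by
      intro b k
      rw [← tri_exp, ← hx x hxQ, map_add, LinearMap.add_apply, LinearMap.add_apply]
      ring
    unfold dl dt
    rw [hpx' x hxQ]
    congr 1
    ext i j
    rw [Matrix.of_apply, hE]
    fin_cases i <;> fin_cases j <;>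
      simp only [Fin.zero_eta, Fin.mk_one, Fin.reduceFinMk, Matrix.of_apply, Matrix.cons_val_zero,
        Matrix.cons_val_one, Matrix.cons_val, h0, h1, h2, h3, h4, h5, ho, hp1, hp2, hu, hv, hk,
        g1, g2, S.s12 u o, S.s12 v o, S.s12 v u, mul_zero, zero_add, a1, b1, c1, d1, f1, a2, b2,
        c2, d2, f2, a3, b3, c3, d3, f3, g]
  have hD : dl S e x = (2 * X 0 x * g + X 1 x * a3 + X 2 x * b3) *
      ((2 * X 0 x * a1 + X 1 x * c1 + X 2 x * d1) * (2 * X 0 x * b2 + X 1 x * d2 + X 2 x * f2) -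
        (2 * X 0 x * b1 + X 1 x * d1 + X 2 x * f1) *
          (2 * X 0 x * a2 + X 1 x * c2 + X 2 x * d2)) := by
    have hE : ∀ b k, S.T (x + prj e x) b k =
        2 * X 0 x * S.T o b k + X 1 x * S.T u b k + X 2 x * S.T v b k := by
      intro b k
      rw [← tri_exp, hpx x hxQ]
      have h6 : (2 * X 0 x) • o + X 1 x • u + X 2 x • v = x + X 0 x • o := by
        have h7 : (2 * X 0 x) • o + X 1 x • u + X 2 x • v =
            (X 0 x • o + X 1 x • u + X 2 x • v) + X 0 x • o := by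
          rw [mul_smul, two_smul]
          abel
        rw [h7, ← hx x hxQ]
      rw [h6]
    unfold dl dt
    rw [Matrix.det_fin_three]
    simp only [Matrix.of_apply, ho, hp1, hp2, hu, hv, hk, hE]
    have e1 : S.T o o u = 0 := hQ.2.three hoQ hoQ huQ
    have e2 : S.T u o u = 0 := hQ.2.three huQ hoQ huQ
    have e3 : S.T v o u = 0 := hQ.2.three hvQ hoQ huQ
    have e4 : S.T o o v = 0 := hQ.2.three hoQ hoQ hvQ
    have e5 : S.T u o v = 0 := hQ.2.three huQ hoQ hvQ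
    have e6 : S.T v o v = 0 := hQ.2.three hvQ hoQ hvQ
    have k1 : S.T o p1 u = a1 := S.s23 _ _ _
    have k2 : S.T u p1 u = c1 := S.s23 _ _ _
    have k3 : S.T v p1 u = d1 := by rw [S.s23, S.s12]
    have k4 : S.T o p1 v = b1 := S.s23 _ _ _
    have k5 : S.T u p1 v = d1 := S.s23 _ _ _
    have k6 : S.T v p1 v = f1 := S.s23 _ _ _
    have l1 : S.T o p2 u = a2 := S.s23 _ _ _
    have l2 : S.T u p2 u = c2 := S.s23 _ _ _
    have l3 : S.T v p2 u = d2 := by rw [S.s23, S.s12]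
    have l4 : S.T o p2 v = b2 := S.s23 _ _ _
    have l5 : S.T u p2 v = d2 := S.s23 _ _ _
    have l6 : S.T v p2 v = f2 := S.s23 _ _ _
    have m1 : S.T u o k = a3 := S.s12 _ _ _
    have m2 : S.T v o k = b3 := S.s12 _ _ _
    have m3 : S.T o o k = g := rfl
    rw [e1, e2, e3, e4, e5, e6, k1, k2, k3, k4, k5, k6, l1, l2, l3, l4, l5, l6, m1, m2, m3]
    ring
  have hdet := det_two (X 0 x) (X 1 x) (X 2 x) a1 b1 c1 d1 f1 a2 b2 c2 d2 f2 a3 b3 c3 d3 f3 g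
  rw [← hD', ← hD] at hdet
  rw [hdet]
  simp only [Matrix.cons_val_zero, Matrix.cons_val_one, Matrix.cons_val]
  rw [hL0, hL1, hL2, q1, q2, q3]

end Vale.Agent.P287.R2.H622
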