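import Vale.Agent.P287.R2.H992.Good

/-!
P287 (helper622), row C of the sharp bound 28 of helper992: four good directions in one plane of
directions give an Eckardt point.
-/

namespace Vale.Agent.P287.R2.H622

open Module Submodule
open Vale.Agent.P287.R2.H248 Vale.Agent.P287.R2.H992

variable {V : Type*} [AddCommGroup V] [Module ℂ V] [FiniteDimensional ℂ V] {S : Tri V}

/-- the data of a good direction -/
lemma good_data {P : Submodule ℂ V} (hP : Pl S P) {w : V} (hw : w ∉ P) (h : Good S P w) :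
    ∃ A : Submodule ℂ V, Pl S A ∧ finrank ℂ ↥(A ⊓ P) = 2 ∧ ∃ a ∈ P, a + w ∈ A := by
  obtain ⟨A, hA, hAle, hAP⟩ := h
  have hnle : ¬ A ≤ P := fun hle => hAP (Submodule.eq_of_le_of_finrank_eq hle (by rw [hA.1, hP.1]))
  refine ⟨A, hA, ?_, ?_⟩
  · have h1 := Submodule.finrank_sup_add_finrank_inf_eq A P
    rw [hA.1, hP.1] at h1
    have h2 : finrank ℂ ↥(A ⊔ P) ≤ 4 := by
      have h3 : A ⊔ P ≤ P ⊔ span ℂ {w} := sup_le hAle le_sup_left
      have h4 := Submodule.finrank_mono h3
      rw [finrank_sup_single hw, hP.1] at h4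
      exact h4
    have h3 : finrank ℂ ↥(A ⊓ P) ≤ 3 := by
      rw [← hA.1]; exact Submodule.finrank_mono inf_le_left
    have h4 : finrank ℂ ↥(A ⊓ P) ≠ 3 := by
      intro h5
      have h6 : A ⊓ P = A := Submodule.eq_of_le_of_finrank_eq inf_le_left (by rw [h5, hA.1])
      exact hnle (inf_eq_left.mp h6)
    omega
  · obtain ⟨b, hbA, hbP⟩ := Set.not_subset.mp hnle
    obtain ⟨p, hp, y, hy, hpy⟩ := mem_sup.mp (hAle hbA)
    obtain ⟨c, rfl⟩ := mem_span_singleton.mp hy
    have hc : c ≠ 0 := by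
      rintro rfl
      rw [zero_smul, add_zero] at hpy
      exact hbP (hpy ▸ hp)
    refine ⟨c⁻¹ • p, P.smul_mem _ hp, ?_⟩
    have h5 : c⁻¹ • p + w = c⁻¹ • b := by
      rw [← hpy, smul_add, smul_smul, inv_mul_cancel₀ hc, one_smul]
    rw [h5]
    exact A.smul_mem _ hbA

omit [FiniteDimensional ℂ V] in
/-- the conic of a good direction vanishes on the trace -/
lemma trace_zero {P A : Submodule ℂ V} (hP : Pl S P) (hA : Pl S A) {w a : V} (ha : a ∈ P)
    (haw : a + w ∈ A) {x x' : V} (hx : x ∈ A ⊓ P) (hx' : x' ∈ A ⊓ P) : S.T x x' w = 0 := by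
  have h1 := hA.2.three hx.1 hx'.1 haw
  rw [map_add, hP.2.three hx.2 hx'.2 ha, zero_add] at h1
  exact h1

/-- a kernel vector of the conic of a good direction -/
lemma exists_kernel {P : Submodule ℂ V} (hP : Pl S P) {w : V} (hw : w ∉ P) (h : Good S P w) :
    ∃ n ∈ P, n ≠ 0 ∧ ∀ x ∈ P, S.T n x w = 0 := by
  obtain ⟨A, hA, h2, a, ha, haw⟩ := good_data hP hw h
  have hne : ∃ v1 ∈ A ⊓ P, v1 ≠ 0 := by
    by_contra hcon
    push Not at hcon
    rw [(Submodule.eq_bot_iff _).mpr hcon, finrank_bot] at h2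
    omega
  obtain ⟨v1, hv1, hv10⟩ := hne
  obtain ⟨v2, hv2, hv21, -⟩ := exists_pair h2 hv1 hv10
  have hnle : ¬ P ≤ A ⊓ P := by
    intro hle
    have := Submodule.finrank_mono hle
    rw [h2, hP.1] at this
    omega
  obtain ⟨u, huP, hu⟩ := Set.not_subset.mp hnle
  have hsup : A ⊓ P ⊔ span ℂ {u} = P := by
    apply Submodule.eq_of_le_of_finrank_eq
    · refine sup_le inf_le_right ?_
      rw [span_singleton_le_iff_mem]; exact huP
    · rw [finrank_sup_single hu, h2, hP.1]
  have key : ∀ n ∈ A ⊓ P, S.T n u w = 0 → ∀ x ∈ P, S.T n x w = 0 := by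
    intro n hn hnu x hx
    rw [← hsup] at hx
    obtain ⟨y, hy, z, hz, rfl⟩ := mem_sup.mp hx
    obtain ⟨c, rfl⟩ := mem_span_singleton.mp hz
    rw [map_add, LinearMap.add_apply, map_smul, LinearMap.smul_apply, hnu,
      trace_zero hP hA ha haw hn hy, smul_zero, add_zero]
  by_cases h1 : S.T v1 u w = 0
  · exact ⟨v1, hv1.2, hv10, key v1 hv1 h1⟩
  · set n := S.T v2 u w • v1 - S.T v1 u w • v2 with hn
    have hnm : n ∈ A ⊓ P :=
      (A ⊓ P).sub_mem ((A ⊓ P).smul_mem _ hv1) ((A ⊓ P).smul_mem _ hv2)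
    refine ⟨n, hnm.2, ?_, key n hnm ?_⟩
    · intro h0
      apply hv21
      have h3 : S.T v1 u w • v2 ∈ span ℂ {v1} := by
        have h4 : S.T v1 u w • v2 = S.T v2 u w • v1 := by
          rw [hn, sub_eq_zero] at h0
          exact h0.symm
        rw [h4]
        exact Submodule.smul_mem _ _ (mem_span_singleton_self v1)
      exact ((span ℂ {v1}).smul_mem_iff h1).mp h3
    · rw [hn, map_sub, map_smul, map_smul, LinearMap.sub_apply, LinearMap.sub_apply,
        LinearMap.smul_apply, LinearMap.smul_apply, LinearMap.smul_apply, LinearMap.smul_apply,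
        smul_eq_mul, smul_eq_mul]
      ring

/-- Every kernel vector of the conic of a good direction `w` satisfies `T n w w = 0`. -/
lemma kernel_square (hV : finrank ℂ V = 6) (hS : S.Smooth) {P : Submodule ℂ V} (hP : Pl S P)
    {w : V} (hw : w ∉ P) (h : Good S P w) {n : V} (hn : n ∈ P) (hker : ∀ x ∈ P, S.T n x w = 0) :
    S.T n w w = 0 := by
  obtain ⟨A, hA, h2, a, ha, haw⟩ := good_data hP hw h
  by_cases hnA : n ∈ A
  · have h1 := hA.2.three hnA haw haw
    have h3 : S.T n a a = 0 := hP.2.three hn ha ha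
    have h4 : S.T n a w = 0 := hker a ha
    have h5 : S.T n w a = 0 := by rw [S.s23]; exact h4
    simp only [map_add, LinearMap.add_apply, h3, h4, h5, zero_add] at h1
    exact h1
  · exfalso
    have hn' : n ∉ A ⊓ P := fun h => hnA h.1
    have hsup : A ⊓ P ⊔ span ℂ {n} = P := by
      apply Submodule.eq_of_le_of_finrank_eq
      · refine sup_le inf_le_right ?_
        rw [span_singleton_le_iff_mem]; exact hn
      · rw [finrank_sup_single hn', h2, hP.1]
    obtain ⟨x, hx, hx0⟩ := not_all hV hS hP hw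
    apply hx0
    rw [← hsup] at hx
    obtain ⟨y, hy, z, hz, rfl⟩ := mem_sup.mp hx
    obtain ⟨c, rfl⟩ := mem_span_singleton.mp hz
    have e1 : S.T y y w = 0 := trace_zero hP hA ha haw hy hy
    have e2 : S.T n y w = 0 := hker y hy.2
    have e3 : S.T n n w = 0 := hker n hn
    have e4 : S.T y n w = 0 := by rw [S.s12]; exact e2
    simp only [map_add, map_smul, LinearMap.add_apply, LinearMap.smul_apply, smul_eq_mul, e1, e2,
      e3, e4]
    ring

/-- ROW C: four good directions in one plane of directions give an Eckardt point. -/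
theorem row_C (hV : finrank ℂ V = 6) (hS : S.Smooth) {P D : Submodule ℂ V} (hP : Pl S P)
    (hD : finrank ℂ D = 2) (hPD : Disjoint P D) (w : Fin 4 → V) (hw : ∀ i, w i ∈ D)
    (hw0 : ∀ i, w i ≠ 0) (hij : ∀ i j, i ≠ j → w j ∉ span ℂ {w i}) (hg : ∀ i, Good S P (w i)) :
    ∃ v, S.Eckardt v := by
  have hwP : ∀ i, w i ∉ P := fun i h => hw0 i (Submodule.disjoint_def.mp hPD _ h (hw i))
  -- the span of the first two directions
  have hD2 : span ℂ {w 0} ⊔ span ℂ {w 1} = D := by
    apply Submodule.eq_of_le_of_finrank_eq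
    · refine sup_le ?_ ?_ <;> rw [span_singleton_le_iff_mem]
      · exact hw 0
      · exact hw 1
    · rw [finrank_sup_single (hij 0 1 (by decide)), finrank_span_singleton (hw0 0), hD]
  have hdec : ∀ y ∈ D, ∃ s t : ℂ, y = s • w 0 + t • w 1 := by
    intro y hy
    rw [← hD2] at hy
    obtain ⟨a, ha, b, hb, rfl⟩ := mem_sup.mp hy
    obtain ⟨s, rfl⟩ := mem_span_singleton.mp ha
    obtain ⟨t, rfl⟩ := mem_span_singleton.mp hb
    exact ⟨s, t, rfl⟩
  have hN : finrank ℂ ↥(P ⊔ D) = 5 := by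
    have h1 := Submodule.finrank_sup_add_finrank_inf_eq P D
    rw [hPD.eq_bot, finrank_bot, hP.1, hD] at h1
    omega
  have nl : ∀ L : Submodule ℂ V, L ≤ P → finrank ℂ L = 2 → (∀ v ∈ L, S.T v v (w 0) = 0) →
      (∀ v ∈ L, S.T v v (w 1) = 0) → False := by
    intro L hL hL2 h0 h1
    refine no_line hV hS hL2 (N := P ⊔ D) (by omega) fun v hv => ?_
    refine sup_le (le_tang hP.2 (hL hv)) ?_
    intro y hy
    obtain ⟨s, t, rfl⟩ := hdec y hy
    rw [mem_tang, map_add, map_smul, map_smul, h0 v hv, h1 v hv, smul_zero, smul_zero, add_zero]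
  -- the first two planes
  obtain ⟨A, hA, hA2, a, ha, haw⟩ := good_data hP (hwP 0) (hg 0)
  obtain ⟨B, hB, hB2, b, hb, hbw⟩ := good_data hP (hwP 1) (hg 1)
  have hA0 : ∀ x ∈ A ⊓ P, ∀ x' ∈ A ⊓ P, S.T x x' (w 0) = 0 := fun x hx x' hx' =>
    trace_zero hP hA ha haw hx hx'
  have hB1 : ∀ x ∈ B ⊓ P, ∀ x' ∈ B ⊓ P, S.T x x' (w 1) = 0 := fun x hx x' hx' =>
    trace_zero hP hB hb hbw hx hx'
  have hne : A ⊓ P ≠ B ⊓ P := by
    intro h
    refine nl (A ⊓ P) inf_le_right hA2 (fun v hv => hA0 v hv v hv) (fun v hv => ?_)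
    rw [h] at hv
    exact hB1 v hv v hv
  -- the basis
  have hz : ∃ z ∈ (A ⊓ P) ⊓ (B ⊓ P), z ≠ 0 := by
    by_contra hcon
    push Not at hcon
    have h1 := Submodule.finrank_sup_add_finrank_inf_eq (A ⊓ P) (B ⊓ P)
    rw [(Submodule.eq_bot_iff _).mpr hcon, finrank_bot, hA2, hB2] at h1
    have h2 : finrank ℂ ↥(A ⊓ P ⊔ B ⊓ P) ≤ 3 := by
      rw [← hP.1]; exact Submodule.finrank_mono (sup_le inf_le_right inf_le_right)
    omega
  obtain ⟨z, ⟨hzA, hzB⟩, hz0⟩ := hz
  have hnle1 : ¬ A ⊓ P ≤ B ⊓ P := fun h =>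
    hne (Submodule.eq_of_le_of_finrank_eq h (by rw [hA2, hB2]))
  have hnle2 : ¬ B ⊓ P ≤ A ⊓ P := fun h =>
    hne (Submodule.eq_of_le_of_finrank_eq h (by rw [hA2, hB2])).symm
  obtain ⟨u1, hu1, hu1B⟩ := Set.not_subset.mp hnle1
  obtain ⟨u2, hu2, hu2A⟩ := Set.not_subset.mp hnle2
  have hu1z : u1 ∉ span ℂ {z} := by
    intro h
    obtain ⟨c, rfl⟩ := mem_span_singleton.mp h
    exact hu1B ((B ⊓ P).smul_mem _ hzB)
  have hAz : span ℂ {z} ⊔ span ℂ {u1} = A ⊓ P := by
    apply Submodule.eq_of_le_of_finrank_eq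
    · refine sup_le ?_ ?_ <;> rw [span_singleton_le_iff_mem]
      · exact hzA
      · exact hu1
    · rw [finrank_sup_single hu1z, finrank_span_singleton hz0, hA2]
  have hPz : A ⊓ P ⊔ span ℂ {u2} = P := by
    apply Submodule.eq_of_le_of_finrank_eq
    · refine sup_le inf_le_right ?_
      rw [span_singleton_le_iff_mem]; exact hu2.2
    · rw [finrank_sup_single hu2A, hA2, hP.1]
  have hPdec : ∀ x ∈ P, ∃ r s t : ℂ, x = r • z + s • u1 + t • u2 := by
    intro x hx
    rw [← hPz, ← hAz] at hx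
    obtain ⟨y, hy, e, he, rfl⟩ := mem_sup.mp hx
    obtain ⟨c, hc, d, hd, rfl⟩ := mem_sup.mp hy
    obtain ⟨r, rfl⟩ := mem_span_singleton.mp hc
    obtain ⟨s, rfl⟩ := mem_span_singleton.mp hd
    obtain ⟨t, rfl⟩ := mem_span_singleton.mp he
    exact ⟨r, s, t, rfl⟩
  -- the coefficients
  obtain ⟨a1, ha1⟩ : ∃ c, S.T z u2 (w 0) = c := ⟨_, rfl⟩
  obtain ⟨b1, hb1⟩ : ∃ c, S.T u1 u2 (w 0) = c := ⟨_, rfl⟩
  obtain ⟨c1, hc1⟩ : ∃ c, S.T u2 u2 (w 0) = c := ⟨_, rfl⟩
  obtain ⟨a2, ha2⟩ : ∃ c, S.T z u1 (w 1) = c := ⟨_, rfl⟩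
  obtain ⟨b2, hb2⟩ : ∃ c, S.T u1 u2 (w 1) = c := ⟨_, rfl⟩
  obtain ⟨c2, hc2⟩ : ∃ c, S.T u1 u1 (w 1) = c := ⟨_, rfl⟩
  have e1 : S.T z z (w 0) = 0 := hA0 z hzA z hzA
  have e2 : S.T z u1 (w 0) = 0 := hA0 z hzA u1 hu1
  have e3 : S.T u1 u1 (w 0) = 0 := hA0 u1 hu1 u1 hu1
  have e4 : S.T z z (w 1) = 0 := hB1 z hzB z hzB
  have e5 : S.T z u2 (w 1) = 0 := hB1 z hzB u2 hu2
  have e6 : S.T u2 u2 (w 1) = 0 := hB1 u2 hu2 u2 hu2
  have f1 : S.T u2 z (w 0) = a1 := by rw [S.s12]; exact ha1
  have f2 : S.T u2 u1 (w 0) = b1 := by rw [S.s12]; exact hb1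
  have f3 : S.T u1 z (w 0) = 0 := by rw [S.s12]; exact e2
  have f4 : S.T u1 z (w 1) = a2 := by rw [S.s12]; exact ha2
  have f5 : S.T u2 u1 (w 1) = b2 := by rw [S.s12]; exact hb2
  have f6 : S.T u2 z (w 1) = 0 := by rw [S.s12]; exact e5
  -- the relation of a third direction
  have rel : ∀ i, ∀ s t : ℂ, w i = s • w 0 + t • w 1 → s ≠ 0 → t ≠ 0 →
      s * (2 * a1 * a2 * b1 - a1 ^ 2 * c2) + t * (2 * a1 * a2 * b2 - a2 ^ 2 * c1) = 0 := by
    intro i s t hwi hs ht
    obtain ⟨n, hnP, hn0, hn⟩ := exists_kernel hP (hwP i) (hg i)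
    obtain ⟨n0, n1, n2, rfl⟩ := hPdec n hnP
    have g1 := hn z hzA.2
    have g2 := hn u1 hu1.2
    have g3 := hn u2 hu2.2
    rw [hwi] at g1 g2 g3
    simp only [map_add, map_smul, LinearMap.add_apply, LinearMap.smul_apply, smul_eq_mul, e1, e2,
      e3, e4, e5, e6, f1, f2, f3, f4, f5, f6, ha1, hb1, hc1, ha2, hb2, hc2] at g1 g2 g3
    have hdet : (Matrix.of ![![0, t * a2, s * a1], ![t * a2, t * c2, s * b1 + t * b2],
        ![s * a1, s * b1 + t * b2, s * c1]] : Matrix (Fin 3) (Fin 3) ℂ).det = 0 := by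
      rw [← Matrix.exists_mulVec_eq_zero_iff]
      refine ⟨![n0, n1, n2], ?_, ?_⟩
      · intro h0
        apply hn0
        have h1 := congrFun h0 0
        have h2 := congrFun h0 1
        have h3 := congrFun h0 2
        simp only [Matrix.cons_val_zero, Matrix.cons_val_one, Matrix.cons_val, Pi.zero_apply]
          at h1 h2 h3
        rw [h1, h2, h3, zero_smul, zero_smul, zero_smul, add_zero, add_zero]
      · funext k
        fin_cases k <;>
          simp only [Matrix.mulVec, dotProduct, Fin.sum_univ_three, Matrix.of_apply,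
            Fin.zero_eta, Fin.mk_one, Fin.reduceFinMk, Matrix.cons_val_zero,
            Matrix.cons_val_one, Matrix.cons_val, Pi.zero_apply]
        · linear_combination g1
        · linear_combination g2
        · linear_combination g3
    rw [Matrix.det_fin_three] at hdet
    simp only [Matrix.of_apply, Matrix.cons_val_zero, Matrix.cons_val_one, Matrix.cons_val]
      at hdet
    have hst : s * t ≠ 0 := mul_ne_zero hs ht
    apply (mul_eq_zero.mp (?_ : (s * t) * _ = 0)).resolve_left hst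
    linear_combination hdet
  -- the coordinates of the third and the fourth direction
  obtain ⟨s2, t2, hw2⟩ := hdec (w 2) (hw 2)
  obtain ⟨s3, t3, hw3⟩ := hdec (w 3) (hw 3)
  have hs2 : s2 ≠ 0 := by
    rintro rfl
    apply hij 1 2 (by decide)
    rw [hw2, zero_smul, zero_add]
    exact Submodule.smul_mem _ _ (mem_span_singleton_self _)
  have ht2 : t2 ≠ 0 := by
    rintro rfl
    apply hij 0 2 (by decide)
    rw [hw2, zero_smul, add_zero]
    exact Submodule.smul_mem _ _ (mem_span_singleton_self _)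
  have hs3 : s3 ≠ 0 := by
    rintro rfl
    apply hij 1 3 (by decide)
    rw [hw3, zero_smul, zero_add]
    exact Submodule.smul_mem _ _ (mem_span_singleton_self _)
  have ht3 : t3 ≠ 0 := by
    rintro rfl
    apply hij 0 3 (by decide)
    rw [hw3, zero_smul, add_zero]
    exact Submodule.smul_mem _ _ (mem_span_singleton_self _)
  have hdet : s2 * t3 - s3 * t2 ≠ 0 := by
    intro h
    apply hij 2 3 (by decide)
    have h1 : w 3 = (s3 / s2) • w 2 := by
      rw [hw2, hw3, smul_add, smul_smul, smul_smul, div_mul_cancel₀ _ hs2]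
      congr 2
      field_simp
      linear_combination h
    rw [h1]
    exact Submodule.smul_mem _ _ (mem_span_singleton_self _)
  have r2 := rel 2 s2 t2 hw2 hs2 ht2
  have r3 := rel 3 s3 t3 hw3 hs3 ht3
  have E1 : 2 * a1 * a2 * b1 - a1 ^ 2 * c2 = 0 := by
    apply (mul_eq_zero.mp (?_ : (s2 * t3 - s3 * t2) * _ = 0)).resolve_left hdet
    linear_combination t3 * r2 - t2 * r3
  have E2 : 2 * a1 * a2 * b2 - a2 ^ 2 * c1 = 0 := by
    apply (mul_eq_zero.mp (?_ : (s2 * t3 - s3 * t2) * _ = 0)).resolve_left hdet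
    linear_combination s2 * r3 - s3 * r2
  -- the two conics have a common kernel vector
  have hfin : a1 = 0 ∧ a2 = 0 := by
    by_cases h1 : a1 = 0
    · by_cases h2 : a2 = 0
      · exact ⟨h1, h2⟩
      · exfalso
        have hc10 : c1 = 0 := by
          rw [h1] at E2
          have h3 : a2 ^ 2 * c1 = 0 := by linear_combination -E2
          exact (mul_eq_zero.mp h3).resolve_left (pow_ne_zero 2 h2)
        refine nl (B ⊓ P) inf_le_right hB2 (fun v hv => ?_) (fun v hv => hB1 v hv v hv)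
        have hBz : span ℂ {z} ⊔ span ℂ {u2} = B ⊓ P := by
          have hu2z : u2 ∉ span ℂ {z} := by
            intro h
            obtain ⟨c, rfl⟩ := mem_span_singleton.mp h
            exact hu2A ((A ⊓ P).smul_mem _ hzA)
          apply Submodule.eq_of_le_of_finrank_eq
          · refine sup_le ?_ ?_ <;> rw [span_singleton_le_iff_mem]
            · exact hzB
            · exact hu2
          · rw [finrank_sup_single hu2z, finrank_span_singleton hz0, hB2]
        rw [← hBz] at hv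
        obtain ⟨c, hc, d, hd, rfl⟩ := mem_sup.mp hv
        obtain ⟨r, rfl⟩ := mem_span_singleton.mp hc
        obtain ⟨s, rfl⟩ := mem_span_singleton.mp hd
        simp only [map_add, map_smul, LinearMap.add_apply, LinearMap.smul_apply, smul_eq_mul, e1,
          f1, ha1, hc1, h1, hc10]
        ring
    · exfalso
      by_cases h2 : a2 = 0
      · have hc20 : c2 = 0 := by
          rw [h2] at E1
          have h3 : a1 ^ 2 * c2 = 0 := by linear_combination -E1
          exact (mul_eq_zero.mp h3).resolve_left (pow_ne_zero 2 h1)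
        refine nl (A ⊓ P) inf_le_right hA2 (fun v hv => hA0 v hv v hv) (fun v hv => ?_)
        rw [← hAz] at hv
        obtain ⟨c, hc, d, hd, rfl⟩ := mem_sup.mp hv
        obtain ⟨r, rfl⟩ := mem_span_singleton.mp hc
        obtain ⟨s, rfl⟩ := mem_span_singleton.mp hd
        simp only [map_add, map_smul, LinearMap.add_apply, LinearMap.smul_apply, smul_eq_mul, e4,
          f4, ha2, hc2, h2, hc20]
        ring
      · set v1 := a1 • u1 - b1 • z with hv1
        set v2 := a2 • u2 - b2 • z with hv2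
        have hv1A : v1 ∈ A ⊓ P :=
          (A ⊓ P).sub_mem ((A ⊓ P).smul_mem _ hu1) ((A ⊓ P).smul_mem _ hzA)
        have hv2B : v2 ∈ B ⊓ P :=
          (B ⊓ P).sub_mem ((B ⊓ P).smul_mem _ hu2) ((B ⊓ P).smul_mem _ hzB)
        have hv2A : v2 ∉ A ⊓ P := by
          intro h
          apply hu2A
          have h3 : a2 • u2 = v2 + b2 • z := by rw [hv2]; abel
          have h4 : a2 • u2 ∈ A ⊓ P := by
            rw [h3]; exact (A ⊓ P).add_mem h ((A ⊓ P).smul_mem _ hzA)
          exact ((A ⊓ P).smul_mem_iff h2).mp h4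
        have hv10 : v1 ≠ 0 := by
          intro h
          apply hu1z
          have h3 : a1 • u1 = b1 • z := by
            rw [hv1, sub_eq_zero] at h
            exact h
          have h4 : a1 • u1 ∈ span ℂ {z} := by
            rw [h3]; exact Submodule.smul_mem _ _ (mem_span_singleton_self z)
          exact ((span ℂ {z}).smul_mem_iff h1).mp h4
        have hv21 : v2 ∉ span ℂ {v1} := by
          intro h
          obtain ⟨c, hc⟩ := mem_span_singleton.mp h
          exact hv2A (hc ▸ (A ⊓ P).smul_mem _ hv1A)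
        refine nl (span ℂ {v1} ⊔ span ℂ {v2}) ?_ ?_ ?_ ?_
        · refine sup_le ?_ ?_ <;> rw [span_singleton_le_iff_mem]
          · exact hv1A.2
          · exact hv2B.2
        · rw [finrank_sup_single hv21, finrank_span_singleton hv10]
        · intro v hv
          obtain ⟨c, hc, d, hd, rfl⟩ := mem_sup.mp hv
          obtain ⟨r, rfl⟩ := mem_span_singleton.mp hc
          obtain ⟨s, rfl⟩ := mem_span_singleton.mp hd
          rw [hv1, hv2]
          simp only [map_add, map_sub, map_smul, LinearMap.add_apply, LinearMap.sub_apply,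
            LinearMap.smul_apply, smul_eq_mul, e1, e2, e3, f1, f2, f3, ha1, hb1, hc1]
          linear_combination (-(s ^ 2)) * E2
        · intro v hv
          obtain ⟨c, hc, d, hd, rfl⟩ := mem_sup.mp hv
          obtain ⟨r, rfl⟩ := mem_span_singleton.mp hc
          obtain ⟨s, rfl⟩ := mem_span_singleton.mp hd
          rw [hv1, hv2]
          simp only [map_add, map_sub, map_smul, LinearMap.add_apply, LinearMap.sub_apply,
            LinearMap.smul_apply, smul_eq_mul, e4, e5, e6, f4, f5, f6, ha2, hb2, hc2]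
          linear_combination (-(r ^ 2)) * E1
  obtain ⟨h1, h2⟩ := hfin
  have hk0 : ∀ x ∈ P, S.T z x (w 0) = 0 := by
    intro x hx
    obtain ⟨r, s, t, rfl⟩ := hPdec x hx
    simp only [map_add, map_smul, LinearMap.add_apply, LinearMap.smul_apply, smul_eq_mul, e1, e2,
      ha1, h1]
    ring
  have hk1 : ∀ x ∈ P, S.T z x (w 1) = 0 := by
    intro x hx
    obtain ⟨r, s, t, rfl⟩ := hPdec x hx
    simp only [map_add, map_smul, LinearMap.add_apply, LinearMap.smul_apply, smul_eq_mul, e4, e5,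
      ha2, h2]
    ring
  have hkD : ∀ x ∈ P, ∀ y ∈ D, S.T z x y = 0 := by
    intro x hx y hy
    obtain ⟨s, t, rfl⟩ := hdec y hy
    rw [map_add, map_smul, map_smul, hk0 x hx, hk1 x hx, smul_zero, smul_zero, add_zero]
  have m0 : S.T z (w 0) (w 0) = 0 := kernel_square hV hS hP (hwP 0) (hg 0) hzA.2 hk0
  have m1 : S.T z (w 1) (w 1) = 0 := kernel_square hV hS hP (hwP 1) (hg 1) hzA.2 hk1
  have m2 : S.T z (w 2) (w 2) = 0 :=
    kernel_square hV hS hP (hwP 2) (hg 2) hzA.2 fun x hx => hkD x hx _ (hw 2)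
  have m01 : S.T z (w 0) (w 1) = 0 := by
    rw [hw2] at m2
    simp only [map_add, map_smul, LinearMap.add_apply, LinearMap.smul_apply, smul_eq_mul, m0, m1,
      S.s23 z (w 1) (w 0)] at m2
    have h3 : (2 * s2 * t2) * S.T z (w 0) (w 1) = 0 := by linear_combination m2
    exact (mul_eq_zero.mp h3).resolve_left (mul_ne_zero (mul_ne_zero two_ne_zero hs2) ht2)
  have m10 : S.T z (w 1) (w 0) = 0 := by rw [S.s23]; exact m01
  have hDD : ∀ y ∈ D, ∀ y' ∈ D, S.T z y y' = 0 := by
    intro y hy y' hy'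
    obtain ⟨s, t, rfl⟩ := hdec y hy
    obtain ⟨s', t', rfl⟩ := hdec y' hy'
    simp only [map_add, map_smul, LinearMap.add_apply, LinearMap.smul_apply, smul_eq_mul, m0, m1,
      m01, m10]
    ring
  have hHH : ∀ h ∈ P ⊔ D, ∀ k ∈ P ⊔ D, S.T z h k = 0 := by
    intro h hh k hk
    obtain ⟨x, hx, y, hy, rfl⟩ := mem_sup.mp hh
    obtain ⟨x', hx', y', hy', rfl⟩ := mem_sup.mp hk
    have k1 : S.T z x x' = 0 := hP.2.three hzA.2 hx hx'
    have k2 : S.T z y x' = 0 := by rw [S.s23]; exact hkD x' hx' y hy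
    simp only [map_add, LinearMap.add_apply, k1, k2, hkD x hx y' hy', hDD y hy y' hy', add_zero]
  refine ⟨z, hz0, hP.2 z hzA.2, ?_⟩
  have htan : P ⊔ D = tang S z := by
    have hle : P ⊔ D ≤ tang S z := fun h hh => hHH z (mem_sup_left hzA.2) h hh
    apply Submodule.eq_of_le_of_finrank_le hle
    rw [hN]
    have h6 := Submodule.finrank_le (tang S z)
    rw [hV] at h6
    by_contra hcon
    have h7 : finrank ℂ ↥(tang S z) = 6 := by omega
    exact hz0 (tang_top hS (Submodule.eq_top_of_finrank_eq (by rw [h7, hV])))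
  intro h k hh hk
  exact hHH h (htan ▸ (hh : h ∈ tang S z)) k (htan ▸ (hk : k ∈ tang S z))

end Vale.Agent.P287.R2.H622
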