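import Vale.Agent.P287.R2.H622.Many

/-!
P287 (helper622), row Z of the sharp bound 28: the final count.
-/

namespace Vale.Agent.P287.R2.H622

open MvPolynomial Submodule Module
open Vale.Agent.P287.R2.H248

/-- The final count: at most 27 planes if no two planes are disjoint. -/
theorem le_27 {F : MvPolynomial (Fin 6) ℂ} (hF : IsCubicFourfold F)
    (hno : ∀ P Q, IsPlaneIn F P → IsPlaneIn F Q → ¬ Disjoint P Q)
    (h13 : ∀ P : Submodule ℂ A6, IsPlaneIn F P → ∀ (N : ℕ) (p : Fin N → Submodule ℂ A6),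
      (∀ i, IsPlaneIn F (p i)) → (∀ i, finrank ℂ ↥(p i ⊓ P) = 2) →
      (∀ i j, i ≠ j → P ⊔ p i ≠ P ⊔ p j) → N ≤ 13)
    (s : Finset (Submodule ℂ A6)) (hs : ∀ P ∈ s, IsPlaneIn F P) : s.card ≤ 27 := by
  classical
  by_contra hcon
  have hndg : ¬ ∀ P, IsPlaneIn F P → ∃ Q, IsPlaneIn F Q ∧ Q ≠ P ∧ finrank ℂ ↥(P ⊓ Q) ≠ 2 := by
    intro h
    obtain ⟨P, Q, hP, hQ, hd⟩ := (twenty_eight hF s (by omega) hs h).1
    exact hno P Q hP hQ hd
  push Not at hndg
  obtain ⟨P, hP, hall⟩ := hndg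
  have hall' : ∀ Q, IsPlaneIn F Q → Q ≠ P → finrank ℂ ↥(Q ⊓ P) = 2 := by
    intro Q hQ hQP
    rw [inf_comm]
    exact hall Q hQ hQP
  set I := (s.erase P).image (fun Q => P ⊔ Q) with hI
  have hI13 : I.card ≤ 13 := by
    have hrep : ∀ W : I, ∃ Q ∈ s.erase P, P ⊔ Q = W.1 := by
      intro W
      obtain ⟨Q, hQ, hQW⟩ := Finset.mem_image.mp W.2
      exact ⟨Q, hQ, hQW⟩
    choose r hr hrW using hrep
    refine h13 P hP I.card (fun i => r (I.equivFin.symm i)) ?_ ?_ ?_
    · intro i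
      exact hs _ (Finset.mem_of_mem_erase (hr _))
    · intro i
      exact hall' _ (hs _ (Finset.mem_of_mem_erase (hr _))) (Finset.ne_of_mem_erase (hr _))
    · intro i j hij h
      rw [hrW, hrW] at h
      exact hij (I.equivFin.symm.injective (Subtype.ext h))
  have hfib : ∀ W ∈ (s.erase P).image (fun Q => P ⊔ Q),
      ((s.erase P).filter (fun Q => P ⊔ Q = W)).card ≤ 2 := by
    intro W hW
    obtain ⟨Q, hQ, rfl⟩ := Finset.mem_image.mp hW
    have hQF : IsPlaneIn F Q := hs _ (Finset.mem_of_mem_erase hQ)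
    have hQP : Q ≠ P := Finset.ne_of_mem_erase hQ
    have hm : Meet P Q := hall Q hQF hQP
    obtain ⟨R, -, -, -, -, -, hR⟩ := third hF hno hP hQF hm
    have hsub : (s.erase P).filter (fun E => P ⊔ E = P ⊔ Q) ⊆ {Q, R} := by
      intro E hE
      obtain ⟨hE1, hE2⟩ := Finset.mem_filter.mp hE
      have hEF : IsPlaneIn F E := hs _ (Finset.mem_of_mem_erase hE1)
      have hEP : E ≠ P := Finset.ne_of_mem_erase hE1
      rw [Finset.mem_insert, Finset.mem_singleton]
      by_contra hne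
      push Not at hne
      apply (hR E hEF hEP hne.1 hne.2).2.1
      refine ⟨hall' E hEF hEP, ?_⟩
      change finrank ℂ ↥(E ⊓ Q) = 2
      have h4 : finrank ℂ ↥(P ⊔ Q) = 4 := by
        have h1 := Submodule.finrank_sup_add_finrank_inf_eq P Q
        have h2 : finrank ℂ ↥(P ⊓ Q) = 2 := hm
        rw [h2, hP.1, hQF.1] at h1
        omega
      have h5 : finrank ℂ ↥(E ⊔ Q) ≤ 4 := by
        rw [← h4]
        refine Submodule.finrank_mono (sup_le ?_ le_sup_right)
        have h6 : E ≤ P ⊔ E := le_sup_right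
        rw [hE2] at h6
        exact h6
      have h7 := Submodule.finrank_sup_add_finrank_inf_eq E Q
      rw [hEF.1, hQF.1] at h7
      have h8 : finrank ℂ ↥(E ⊓ Q) ≤ 3 := by
        rw [← hEF.1]; exact Submodule.finrank_mono inf_le_left
      have h9 : finrank ℂ ↥(E ⊓ Q) ≠ 3 := by
        intro h
        have e1 : E ⊓ Q = E :=
          Submodule.eq_of_le_of_finrank_eq inf_le_left (by rw [h, hEF.1])
        have e2 : E ⊓ Q = Q :=
          Submodule.eq_of_le_of_finrank_eq inf_le_right (by rw [h, hQF.1])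
        exact hne.1 (e1.symm.trans e2)
      omega
    exact (Finset.card_le_card hsub).trans Finset.card_le_two
  have hcard := Finset.card_le_mul_card_image (f := fun Q => P ⊔ Q) (s.erase P) 2 hfib
  have hcard2 : s.card ≤ (s.erase P).card + 1 := by
    have := Finset.pred_card_le_card_erase (s := s) (a := P)
    omega
  have : ((s.erase P).image (fun Q => P ⊔ Q)).card ≤ 13 := hI13
  omega

end Vale.Agent.P287.R2.H622
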